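import Vale.Agent.P297.Cc.Defs

/-!
The chain rule.
-/

set_option linter.unusedSectionVars false
set_option linter.style.haveILetI false

open CategoryTheory AlgebraicGeometry IntermediateField Polynomial

namespace Vale.Agent.P297.Cc

open Vale.Agent.P297 Vale.Agent.P297.H839 Vale.Agent.P297.H516 Vale.Agent.P297.H878
  Vale.Agent.P297.Gen Vale.Agent.P297.Gg Vale.Agent.P297.Jj Vale.Agent.P297.Tw

variable {W : Type} [Field W] [Algebra ℂ W] {N : Type} [Field N] [Algebra ℂ N]

/-- The chain rule. -/
theorem chainC {g : ℕ} {k : IntermediateField ℂ W} {l x y : W} {f : k[X]}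
    (h : CPencil g k l x y f) (δ : Derivation k W W) (hδ : δ x = 1)
    (σ : W →ₐ[ℂ] N) (D : Derivation ℤ N N) (hD : ∀ e : k, D (σ e) = 0) (u : W) :
    D (σ u) = σ (δ u) * D (σ x) := by
  obtain ⟨Δ, hΔ⟩ : ∃ Δ : W → N, ∀ u, Δ u = D (σ u) - σ (δ u) * D (σ x) := ⟨_, fun _ => rfl⟩
  have hadd : ∀ a b, Δ (a + b) = Δ a + Δ b := by
    intro a b
    rw [hΔ, hΔ, hΔ, map_add, map_add, map_add, map_add]
    ring
  have hmul : ∀ a b, Δ (a * b) = σ a * Δ b + σ b * Δ a := by
    intro a b
    rw [hΔ, hΔ, hΔ, map_mul, D.leibniz, δ.leibniz]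
    simp only [smul_eq_mul, map_add, map_mul]
    ring
  have hone : Δ 1 = 0 := by
    rw [hΔ, map_one, D.map_one_eq_zero, δ.map_one_eq_zero, map_zero, zero_mul, sub_zero]
  have hzero : Δ 0 = 0 := by
    rw [hΔ, map_zero, map_zero, map_zero, map_zero, zero_mul, sub_zero]
  have hpow : ∀ (a : W) (n : ℕ), Δ (a ^ n) = n * σ a ^ (n - 1) * Δ a := by
    intro a n
    induction n with
    | zero => rw [pow_zero, hone, Nat.cast_zero, zero_mul, zero_mul]
    | succ n ih =>
      rw [pow_succ, hmul, ih, map_pow, Nat.add_sub_cancel]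
      rcases n with _ | n
      · simp
      · rw [Nat.add_sub_cancel]
        push_cast
        ring
  have hE : ∀ e ∈ k ⊔ IntermediateField.adjoin ℂ {x}, Δ e = 0 := by
    intro e he
    refine sup_induction (P := fun e => Δ e = 0) ?_ ?_ ?_ ?_ ?_ he
    · intro e he
      rw [hΔ, Tw.der_base δ he, map_zero, zero_mul, sub_zero]
      exact hD ⟨e, he⟩
    · rw [hΔ, hδ, map_one, one_mul, sub_self]
    · intro a b ha hb
      rw [hadd, ha, hb, add_zero]
    · intro a b ha hb
      rw [hmul, ha, hb, mul_zero, mul_zero, add_zero]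
    · intro a ha
      rcases eq_or_ne a 0 with rfl | ha0
      · rw [inv_zero]
        exact hzero
      · have h1 : Δ (a * a⁻¹) = 0 := by
          rw [mul_inv_cancel₀ ha0]
          exact hone
        rw [hmul, ha, mul_zero, add_zero] at h1
        exact (mul_eq_zero.1 h1).resolve_left fun h0 =>
          ha0 (σ.toRingHom.injective (h0.trans (map_zero _).symm))
  haveI : CharZero (k ⊔ IntermediateField.adjoin ℂ {x} : IntermediateField ℂ W) :=
    charZero_of_injective_algebraMap (algebraMap ℂ _).injective
  have key : ∀ p : (k ⊔ IntermediateField.adjoin ℂ {x} : IntermediateField ℂ W)[X],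
      Δ (aeval u p) = σ (aeval u (derivative p)) * Δ u := by
    intro p
    induction p using Polynomial.induction_on' with
    | add p q hp hq => rw [map_add, hadd, hp, hq, derivative_add, map_add, map_add, add_mul]
    | monomial n a =>
      have ha : Δ (algebraMap _ W a) = 0 := hE _ a.2
      rw [aeval_monomial, derivative_monomial, aeval_monomial, hmul, ha, mul_zero, add_zero, hpow,
        map_mul, map_mul, map_mul, map_pow, map_natCast, map_natCast]
      ring
  have hint : IsIntegral (k ⊔ IntermediateField.adjoin ℂ {x} : IntermediateField ℂ W) u :=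
    (h.top u).isIntegral
  have h1 := key (minpoly _ u)
  rw [minpoly.aeval, hzero] at h1
  have h2 : aeval u (derivative (minpoly
      (k ⊔ IntermediateField.adjoin ℂ {x} : IntermediateField ℂ W) u)) ≠ 0 :=
    (minpoly.irreducible hint).separable.aeval_derivative_ne_zero (minpoly.aeval _ _)
  have h3 := (mul_eq_zero.1 h1.symm).resolve_left fun h0 =>
    h2 (σ.toRingHom.injective (h0.trans (map_zero _).symm))
  rw [hΔ] at h3
  exact sub_eq_zero.1 h3

/-- The fields that contain `k(x)` are stable under the derivation. -/
theorem der_mem {g : ℕ} {k : IntermediateField ℂ W} {l x y : W} {f : k[X]}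
    (h : CPencil g k l x y f) (δ : Derivation k W W) (hδ : δ x = 1) (F : IntermediateField ℂ W)
    (hF : k ⊔ IntermediateField.adjoin ℂ {x} ≤ F) {u : W} (hu : u ∈ F) : δ u ∈ F := by
  haveI : CharZero (k ⊔ IntermediateField.adjoin ℂ {x} : IntermediateField ℂ W) :=
    charZero_of_injective_algebraMap (algebraMap ℂ _).injective
  have hev : ∀ p : (k ⊔ IntermediateField.adjoin ℂ {x} : IntermediateField ℂ W)[X],
      aeval u p ∈ F := by
    intro p
    rw [Polynomial.aeval_def, Polynomial.eval₂_eq_sum_range]
    exact sum_mem fun i _ => mul_mem (hF (p.coeff i).2) (pow_mem hu i)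
  have hmul : ∀ a b : W, δ (a * b) = a * δ b + b * δ a := fun a b => δ.leibniz a b
  have hpow : ∀ n : ℕ, δ (u ^ n) = n * u ^ (n - 1) * δ u := by
    intro n
    induction n with
    | zero => rw [pow_zero, δ.map_one_eq_zero, Nat.cast_zero, zero_mul, zero_mul]
    | succ n ih =>
      rw [pow_succ, hmul, ih, Nat.add_sub_cancel]
      rcases n with _ | n
      · simp
      · rw [Nat.add_sub_cancel]
        push_cast
        ring
  have key : ∀ p : (k ⊔ IntermediateField.adjoin ℂ {x} : IntermediateField ℂ W)[X],
      δ (aeval u p) - aeval u (derivative p) * δ u ∈ F := by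
    intro p
    induction p using Polynomial.induction_on' with
    | add p q hp hq =>
      have h3 : δ (aeval u (p + q)) - aeval u (derivative (p + q)) * δ u =
          (δ (aeval u p) - aeval u (derivative p) * δ u) +
            (δ (aeval u q) - aeval u (derivative q) * δ u) := by
        rw [map_add, map_add, derivative_add, map_add]
        ring
      rw [h3]
      exact add_mem hp hq
    | monomial n a =>
      have ha : δ (a : W) ∈ F := hF (Tw.der_range δ hδ a.2)
      have h3 : δ (aeval u (monomial n a)) - aeval u (derivative (monomial n a)) * δ u =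
          u ^ n * δ (a : W) := by
        have h4 : aeval u (monomial n a) = (a : W) * u ^ n := by
          rw [aeval_monomial]
          rfl
        have h5 : aeval u (derivative (monomial n a)) = (a : W) * n * u ^ (n - 1) := by
          rw [derivative_monomial, aeval_monomial, map_mul, map_natCast]
          rfl
        rw [h4, h5, hmul, hpow]
        ring
      rw [h3]
      exact mul_mem (pow_mem hu n) ha
  have hint : IsIntegral (k ⊔ IntermediateField.adjoin ℂ {x} : IntermediateField ℂ W) u :=
    (h.top u).isIntegral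
  have h1 := key (minpoly _ u)
  rw [minpoly.aeval, map_zero, zero_sub] at h1
  have h2 : aeval u (derivative (minpoly
      (k ⊔ IntermediateField.adjoin ℂ {x} : IntermediateField ℂ W) u)) ≠ 0 :=
    (minpoly.irreducible hint).separable.aeval_derivative_ne_zero (minpoly.aeval _ _)
  have h3 := div_mem h1 (neg_mem (hev (derivative (minpoly _ u))))
  rw [neg_div_neg_eq, mul_div_cancel_left₀ _ h2] at h3
  exact h3

end Vale.Agent.P297.Cc
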