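import Vale.Agent.P297.Tw.Setup

/-!
Pencils of hyperelliptic curves, seen in an algebraic closure.
-/

set_option linter.unusedSectionVars false
set_option linter.style.haveILetI false

open CategoryTheory AlgebraicGeometry IntermediateField Polynomial

namespace Vale.Agent.P297.Cc

open Vale.Agent.P297 Vale.Agent.P297.H839 Vale.Agent.P297.H516 Vale.Agent.P297.H878
  Vale.Agent.P297.Gen Vale.Agent.P297.Gg Vale.Agent.P297.Jj Vale.Agent.P297.Tw

/-- A pencil of hyperelliptic curves over the algebraic closure `k` of `ℂ(l)` in `W`. -/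
structure CPencil {W : Type} [Field W] [Algebra ℂ W] (g : ℕ) (k : IntermediateField ℂ W)
    (l x y : W) (f : k[X]) : Prop where
  mem : l ∈ k
  alg : ∀ e ∈ k, IsAlgebraic (IntermediateField.adjoin ℂ {l}) e
  closed : ∀ v : W, IsAlgebraic k v → v ∈ k
  ind : AlgebraicIndependent ℂ ![l, x]
  sqf : Squarefree f
  low : 2 * g + 1 ≤ f.natDegree
  high : f.natDegree ≤ 2 * g + 2
  eq : y ^ 2 = Polynomial.aeval x f
  top : ∀ w : W, IsAlgebraic (k ⊔ IntermediateField.adjoin ℂ {x} : IntermediateField ℂ W) w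

variable {W : Type} [Field W] [Algebra ℂ W] {g : ℕ} {k : IntermediateField ℂ W} {l x y : W}
  {f : k[X]}

theorem CPencil.sep (h : CPencil g k l x y f) : f.Separable := by
  haveI : CharZero k := charZero_of_injective_algebraMap (algebraMap ℂ _).injective
  exact PerfectField.separable_iff_squarefree.2 h.sqf

theorem CPencil.lam_mem (h : CPencil g k l x y f) {N : Type} [Field N] [Algebra ℂ N]
    (lam : k →ₐ[ℂ] N) {M : IntermediateField ℂ N} (hM : ∀ u, IsAlgebraic M u → u ∈ M)
    (hl : lam ⟨l, h.mem⟩ ∈ M) (e : k) : lam e ∈ M := by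
  have hle : IntermediateField.adjoin ℂ {l} ≤ k := by
    rw [IntermediateField.adjoin_le_iff]
    rintro _ rfl
    exact h.mem
  have h1 : ∀ e (he : e ∈ IntermediateField.adjoin ℂ {l}), lam ⟨e, hle he⟩ ∈ M := by
    intro e he
    have h2 : IntermediateField.adjoin ℂ {l} ≤ (M.comap lam).map k.val := by
      rw [IntermediateField.adjoin_le_iff]
      rintro _ rfl
      exact ⟨⟨_, h.mem⟩, hl, rfl⟩
    obtain ⟨⟨u, hu⟩, hu', h3⟩ := h2 he
    have h4 : u = e := h3
    subst h4
    exact hu'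
  obtain ⟨p, hp0, hp⟩ := h.alg e e.2
  apply hM
  let φ : IntermediateField.adjoin ℂ ({l} : Set W) →+* N :=
    lam.toRingHom.comp (IntermediateField.inclusion hle).toRingHom
  refine isAlgebraic_of_coeff (p := p.map φ) ?_ ?_ ?_
  · intro n
    rw [coeff_map]
    exact h1 _ (p.coeff n).2
  · exact (Polynomial.map_ne_zero_iff φ.injective).2 hp0
  · rw [Polynomial.eval_map]
    have h2 := Polynomial.hom_eval₂ p (IntermediateField.inclusion hle).toRingHom lam.toRingHom e
    refine h2.symm.trans ?_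
    have h3 : Polynomial.eval₂ (IntermediateField.inclusion hle).toRingHom e p = 0 := by
      apply Subtype.ext
      have h4 := Polynomial.hom_eval₂ p (IntermediateField.inclusion hle).toRingHom
        k.val.toRingHom e
      refine h4.trans ?_
      exact hp
    rw [h3]
    exact map_zero lam

/-- An embedding with values in a closed field. -/
theorem alg_mem {E : IntermediateField ℂ W} {N : Type} [Field N] [Algebra ℂ N]
    {M : IntermediateField ℂ N} (hM : ∀ u, IsAlgebraic M u → u ∈ M)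
    {φ : W →ₐ[ℂ] N} (hE : ∀ e ∈ E, φ e ∈ M) {u : W} (hu : IsAlgebraic E u) : φ u ∈ M := by
  obtain ⟨p, hp0, hp⟩ := hu
  apply hM
  refine isAlgebraic_of_coeff (p := p.map (φ.toRingHom.comp E.val.toRingHom)) ?_ ?_ ?_
  · intro n
    rw [coeff_map]
    exact hE _ (p.coeff n).2
  · exact (Polynomial.map_ne_zero_iff (φ.toRingHom.comp E.val.toRingHom).injective).2 hp0
  · rw [Polynomial.eval_map]
    have h2 := Polynomial.hom_eval₂ p E.val.toRingHom φ.toRingHom u
    refine h2.symm.trans ?_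
    have h3 : Polynomial.eval₂ E.val.toRingHom u p = 0 := hp
    rw [h3]
    exact map_zero φ

theorem CPencil.range_mem (h : CPencil g k l x y f) {N : Type} [Field N] [Algebra ℂ N]
    {M : IntermediateField ℂ N} (hM : ∀ u, IsAlgebraic M u → u ∈ M)
    {φ : W →ₐ[ℂ] N} (hk : ∀ e ∈ k, φ e ∈ M) (hx : φ x ∈ M) (u : W) : φ u ∈ M := by
  refine alg_mem hM (E := k ⊔ IntermediateField.adjoin ℂ {x}) ?_ (h.top u)
  intro e he
  refine sup_induction (P := fun e => φ e ∈ M) hk hx ?_ ?_ ?_ he
  · intro a b ha hb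
    rw [map_add]
    exact add_mem ha hb
  · intro a b ha hb
    rw [map_mul]
    exact mul_mem ha hb
  · intro a ha
    rw [map_inv₀]
    exact inv_mem ha

theorem transcendental_of_ind (h : CPencil g k l x y f) {N : Type} [Field N] [Algebra ℂ N]
    (lam : k →ₐ[ℂ] N) {z' : N} (hz : AlgebraicIndependent ℂ ![lam ⟨l, h.mem⟩, z'])
    (p : k[X]) (hp : p ≠ 0) : (p.map lam.toRingHom).eval z' ≠ 0 := by
  intro h0
  obtain ⟨M, hM, hlM, hMi⟩ := exists_closure ((pair_iff _ _).1 hz).1
  have hl : lam ⟨l, h.mem⟩ ∈ M := hlM (IntermediateField.mem_adjoin_simple_self ℂ _)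
  have hz' : z' ∉ M := (hMi _).1 hz
  apply hz'
  apply hM
  refine isAlgebraic_of_coeff (p := p.map lam.toRingHom) ?_ ?_ h0
  · intro n
    rw [coeff_map]
    exact h.lam_mem lam hM hl _
  · exact (Polynomial.map_ne_zero_iff lam.toRingHom.injective).2 hp

theorem CPencil.trans_x (h : CPencil g k l x y f) : Transcendental k x := by
  rintro ⟨p, hp0, hp⟩
  refine transcendental_of_ind h k.val h.ind p hp0 ?_
  rw [Polynomial.eval_map]
  exact hp

/-- Embeddings of `W` over an embedding of a subfield. -/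
theorem exists_ext {E : IntermediateField ℂ W} (hE : ∀ w : W, IsAlgebraic E w) {N : Type}
    [Field N] [Algebra ℂ N] [IsAlgClosed N] (τ : E →ₐ[ℂ] N) :
    ∃ Θ : W →ₐ[ℂ] N, ∀ e : E, Θ e = τ e := by
  haveI : Algebra.IsAlgebraic E W := ⟨hE⟩
  obtain ⟨φ, hφ⟩ := exists_lift_ring (A := E) (B := W) τ.toRingHom
  have hφ' : ∀ a : E, φ (algebraMap E W a) = τ a := fun a =>
    congrArg (fun ψ : E →+* N => ψ a) hφ
  exact ⟨{ φ with commutes' := fun r => (hφ' (algebraMap ℂ E r)).trans (τ.commutes r) },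
    fun e => hφ' e⟩

/-- The points of the pencil. -/
theorem CPencil.emb (h : CPencil g k l x y f) {N : Type} [Field N] [Algebra ℂ N] [IsAlgClosed N]
    (lam : k →ₐ[ℂ] N) {z' : N} (hz : AlgebraicIndependent ℂ ![lam ⟨l, h.mem⟩, z']) :
    ∃ Θ : W →ₐ[ℂ] N, (∀ e : k, Θ e = lam e) ∧ Θ x = z' := by
  letI : Algebra k N := lam.toRingHom.toAlgebra
  haveI : IsScalarTower ℂ k N := IsScalarTower.of_algebraMap_eq fun a => (lam.commutes a).symm
  have hlamN : ∀ e : k, algebraMap k N e = lam e := fun _ => rfl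
  have hzt : Transcendental k z' := by
    rintro ⟨p, hp0, hp⟩
    refine transcendental_of_ind h lam hz p hp0 ?_
    rw [Polynomial.eval_map]
    exact hp
  obtain ⟨φ, hφ⟩ := exists_tau_base x h.trans_x z' hzt
  have hle : k ⊔ IntermediateField.adjoin ℂ {x} ≤
      (IntermediateField.adjoin k (Set.range ![x])).restrictScalars ℂ := by
    rw [sup_le_iff]
    refine ⟨fun e he => (IntermediateField.adjoin k (Set.range ![x])).algebraMap_mem ⟨e, he⟩, ?_⟩
    rw [IntermediateField.adjoin_le_iff]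
    rintro _ rfl
    exact IntermediateField.subset_adjoin k _ ⟨0, rfl⟩
  let τ : (k ⊔ IntermediateField.adjoin ℂ {x} : IntermediateField ℂ W) →ₐ[ℂ] N :=
    (φ.restrictScalars ℂ).comp (IntermediateField.inclusion hle)
  have hτk : ∀ e (he : e ∈ k), τ ⟨e, (le_sup_left : k ≤ _) he⟩ = lam ⟨e, he⟩ := fun e he =>
    φ.commutes ⟨e, he⟩
  have hxm : x ∈ k ⊔ IntermediateField.adjoin ℂ {x} :=
    (le_sup_right : IntermediateField.adjoin ℂ {x} ≤ _)
      (IntermediateField.mem_adjoin_simple_self ℂ x)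
  have hτx : τ ⟨x, hxm⟩ = z' := hφ
  obtain ⟨Θ, hΘ⟩ := exists_ext h.top τ
  exact ⟨Θ, fun e => (hΘ ⟨e, (le_sup_left : k ≤ _) e.2⟩).trans (hτk e e.2),
    (hΘ ⟨x, hxm⟩).trans hτx⟩

end Vale.Agent.P297.Cc
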