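import Vale.Agent.P297.Tw.Setup

/-!
Linear disjointness over an algebraically closed base.
-/

set_option linter.unusedSectionVars false
set_option linter.style.haveILetI false

open CategoryTheory AlgebraicGeometry IntermediateField Polynomial

namespace Vale.Agent.P297.Cc

open Vale.Agent.P297 Vale.Agent.P297.H839 Vale.Agent.P297.H516 Vale.Agent.P297.H878
  Vale.Agent.P297.Gen Vale.Agent.P297.Gg Vale.Agent.P297.Tw

theorem exists_spec {k R : Type} [Field k] [IsAlgClosed k] [CommRing R] [Nontrivial R]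
    [Algebra k R] [Algebra.FiniteType k R] : Nonempty (R →ₐ[k] k) := by
  obtain ⟨m, hm⟩ := Ideal.exists_maximal R
  letI := Ideal.Quotient.field m
  haveI : Module.Finite k (R ⧸ m) := finite_of_finite_type_of_isJacobsonRing k (R ⧸ m)
  exact ⟨(IsAlgClosed.lift : (R ⧸ m) →ₐ[k] k).comp (Ideal.Quotient.mkₐ k m)⟩

theorem ext_int {A B Ω : Type} [CommRing A] [CommRing B] [Algebra A B] [Field Ω] [IsAlgClosed Ω]
    (hinj : Function.Injective (algebraMap A B)) [Algebra.IsIntegral A B] (f : A →+* Ω) :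
    ∃ g : B →+* Ω, g.comp (algebraMap A B) = f := by
  let P := RingHom.ker f
  haveI : P.IsPrime := RingHom.ker_isPrime f
  obtain ⟨Q, -, hQ, hQP⟩ := Ideal.exists_ideal_over_prime_of_isIntegral P (⊥ : Ideal B) (by
    rw [← RingHom.ker_eq_comap_bot, (RingHom.injective_iff_ker_eq_bot _).1 hinj]
    exact bot_le)
  let q : A ⧸ P →+* B ⧸ Q := Ideal.quotientMap Q (algebraMap A B) hQP.ge
  have hq : Function.Injective q := Ideal.quotientMap_injective' hQP.le
  letI : Algebra (A ⧸ P) (B ⧸ Q) := q.toAlgebra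
  let f' : A ⧸ P →+* Ω := RingHom.kerLift f
  have hf' : Function.Injective f' := RingHom.kerLift_injective f
  letI : Algebra (A ⧸ P) Ω := f'.toAlgebra
  haveI : Module.IsTorsionFree (A ⧸ P) (B ⧸ Q) :=
    Module.isTorsionFree_iff_algebraMap_injective.2 hq
  haveI : Module.IsTorsionFree (A ⧸ P) Ω :=
    Module.isTorsionFree_iff_algebraMap_injective.2 hf'
  haveI : Algebra.IsIntegral (A ⧸ P) (B ⧸ Q) := by
    constructor
    intro b
    obtain ⟨b, rfl⟩ := Ideal.Quotient.mk_surjective b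
    obtain ⟨p, hp, hpb⟩ := Algebra.IsIntegral.isIntegral (R := A) b
    refine ⟨p.map (Ideal.Quotient.mk P), hp.map _, ?_⟩
    rw [Polynomial.eval₂_map]
    have h1 := congrArg (Ideal.Quotient.mk Q) hpb
    rw [Polynomial.hom_eval₂, map_zero] at h1
    exact h1
  let g' : (B ⧸ Q) →ₐ[A ⧸ P] Ω := IsAlgClosed.lift
  refine ⟨g'.toRingHom.comp (Ideal.Quotient.mk Q), ?_⟩
  ext a
  have h1 := g'.commutes (Ideal.Quotient.mk P a)
  exact h1


theorem ext_closure {A N Ω : Type} [CommRing A] [Field N] [Field Ω] [IsAlgClosed Ω]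
    (ev : A →+* N) (hev : Function.Injective ev) (s : A →+* Ω) :
    ∃ (B : Subring N) (G : B →+* Ω), (∀ v : N, (∃ p : A[X], p.Monic ∧ p.eval₂ ev v = 0) → v ∈ B) ∧
      ∀ a (h : ev a ∈ B), G ⟨ev a, h⟩ = s a := by
  letI : Algebra A N := ev.toAlgebra
  have hinj : Function.Injective (algebraMap A (integralClosure A N)) := by
    intro a b hab
    exact hev (congrArg (fun v : integralClosure A N => (v : N)) hab)
  obtain ⟨G, hG⟩ := ext_int hinj s
  refine ⟨(integralClosure A N).toSubring, G, fun v hv => hv, fun a h => ?_⟩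
  exact congrArg (fun ψ : A →+* Ω => ψ a) hG

theorem exists_T {A Ω : Type} [CommRing A] [Field Ω] (j : A →+* Ω) :
    ∃ T : Subring Ω, ∀ v, v ∈ T ↔ ∃ p : A[X], p.Monic ∧ p.eval₂ j v = 0 := by
  letI : Algebra A Ω := j.toAlgebra
  exact ⟨(integralClosure A Ω).toSubring, fun v => Iff.rfl⟩

theorem inj_int {A Ω Ω' : Type} [CommRing A] [Field Ω] [Field Ω'] (j : A →+* Ω) (T : Subring Ω)
    (hjT : ∀ a, j a ∈ T) (hT : ∀ v ∈ T, ∃ p : A[X], p.Monic ∧ p.eval₂ j v = 0) (τ : T →+* Ω')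
    (hτ : ∀ a, τ ⟨j a, hjT a⟩ = 0 → a = 0) : Function.Injective τ := by
  letI : Algebra A T := (j.codRestrict T hjT).toAlgebra
  haveI : Algebra.IsIntegral A T := by
    constructor
    intro v
    obtain ⟨p, hp, hpv⟩ := hT v v.2
    refine ⟨p, hp, ?_⟩
    apply Subtype.ext
    exact (Polynomial.hom_eval₂ p (j.codRestrict T hjT) T.subtype v).trans hpv
  haveI : Nontrivial A := by
    refine ⟨0, 1, fun h => ?_⟩
    have h1 := congrArg j h
    rw [map_zero, map_one] at h1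
    exact zero_ne_one h1
  rw [RingHom.injective_iff_ker_eq_bot]
  apply Ideal.eq_bot_of_comap_eq_bot (R := A)
  rw [eq_bot_iff]
  intro p hp
  exact hτ p hp

section

variable {Ω N : Type} [Field Ω] [Algebra ℂ Ω] [IsAlgClosed Ω] [Field N] [Algebra ℂ N]
  [IsAlgClosed N] {k : IntermediateField ℂ Ω} {x : Ω}

/-- Specialization of the coefficients of a relation. -/
theorem ld_spec (lam : k →ₐ[ℂ] N) (M : IntermediateField ℂ N)
    (hM : ∀ v, IsAlgebraic M v → v ∈ M)
    (φ : Ω →ₐ[ℂ] N) (hφ : ∀ e : k, φ e = lam e) (hx : φ x ∉ M)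
    {R : Type} [CommRing R] [Algebra k R] (i : R →+* N) (hi : Function.Injective i)
    (hiM : ∀ r, i r ∈ M) (hik : ∀ e : k, i (algebraMap k R e) = lam e) (s : R →ₐ[k] k)
    {J : Type} [Fintype J] (t : J → Ω) (c : J → R)
    (hti : ∀ j, ∃ p : k[X][X], p.Monic ∧
      p.eval₂ (aeval x : k[X] →ₐ[k] Ω).toRingHom (t j) = 0)
    (hsum : ∑ j, i (c j) * φ (t j) = 0) : ∑ j, ((s (c j) : k) : Ω) * t j = 0 := by
  classical
  let ev : R[X] →+* N := Polynomial.eval₂RingHom i (φ x)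
  have hevinj : Function.Injective ev := by
    rw [injective_iff_map_eq_zero]
    intro p hp
    by_contra hp0
    have hp' : p.map i ≠ 0 := (Polynomial.map_ne_zero_iff hi).2 hp0
    refine hx (root_mem M hM (p := p.map i) (fun n => ?_) hp' ?_)
    · rw [coeff_map]
      exact hiM _
    · rw [Polynomial.eval_map]
      exact hp
  let s' : R[X] →+* Ω := Polynomial.eval₂RingHom ((algebraMap k Ω).comp s.toRingHom) x
  obtain ⟨B, G, hB, hG⟩ := ext_closure ev hevinj s'
  -- the integral elements of `Ω`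
  let μ : k[X] →+* R[X] := Polynomial.mapRingHom (algebraMap k R)
  have hμ : ∀ p : k[X], ev (μ p) = φ (aeval x p) := by
    intro p
    change Polynomial.eval₂ _ _ (p.map _) = _
    rw [Polynomial.eval₂_map, Polynomial.aeval_def]
    refine Eq.trans ?_ (Polynomial.hom_eval₂ p _ φ.toRingHom x).symm
    congr 1
    exact RingHom.ext fun e => (hik e).trans (hφ e).symm
  have hxtr : Function.Injective (aeval x : k[X] →ₐ[k] Ω) := by
    rw [injective_iff_map_eq_zero]
    intro p hp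
    have h1 : ev (μ p) = 0 := by rw [hμ, hp, map_zero]
    have h2 : μ p = 0 := hevinj (h1.trans (map_zero ev).symm)
    have h3 : Function.Injective (algebraMap k R) := by
      intro a b hab
      have h4 := hik a
      rw [hab, hik b] at h4
      exact (lam.toRingHom.injective h4).symm
    exact (Polynomial.map_eq_zero_iff h3).1 h2
  obtain ⟨T, hT⟩ := exists_T (aeval x : k[X] →ₐ[k] Ω).toRingHom
  have hTB : ∀ v ∈ T, φ v ∈ B := by
    intro v hv
    obtain ⟨p, hp, hpv⟩ := (hT v).1 hv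
    apply hB
    refine ⟨p.map μ, hp.map _, ?_⟩
    rw [Polynomial.eval₂_map]
    have h1 := congrArg φ hpv
    rw [map_zero] at h1
    rw [← h1]
    refine Eq.trans ?_ (Polynomial.hom_eval₂ p _ φ.toRingHom v).symm
    congr 1
    exact RingHom.ext fun e => hμ e
  let τ : T →+* Ω :=
    { toFun := fun v => G ⟨φ v, hTB v v.2⟩
      map_one' := by
        rw [← map_one G]
        congr 1
        exact Subtype.ext (map_one φ)
      map_zero' := by
        rw [← map_zero G]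
        congr 1
        exact Subtype.ext (map_zero φ)
      map_mul' := fun a b => by
        rw [← map_mul G]
        congr 1
        exact Subtype.ext (map_mul φ _ _)
      map_add' := fun a b => by
        rw [← map_add G]
        congr 1
        exact Subtype.ext (map_add φ _ _) }
  have hjT : ∀ p, (aeval x : k[X] →ₐ[k] Ω).toRingHom p ∈ T := by
    intro p
    rw [hT]
    exact ⟨X - Polynomial.C p, monic_X_sub_C p, by rw [eval₂_sub, eval₂_X, eval₂_C, sub_self]⟩
  have hτ : ∀ p : k[X], τ ⟨_, hjT p⟩ = aeval x p := by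
    intro p
    have hm : ev (μ p) ∈ B := by
      rw [hμ]
      exact hTB _ (hjT p)
    have h1 : τ ⟨_, hjT p⟩ = G ⟨ev (μ p), hm⟩ := by
      change G _ = G _
      congr 1
      exact Subtype.ext (hμ p).symm
    rw [h1, hG]
    change Polynomial.eval₂ _ _ (p.map _) = _
    rw [Polynomial.eval₂_map, Polynomial.aeval_def]
    congr 1
    exact RingHom.ext fun e => congrArg (algebraMap k Ω) (s.commutes e)
  have hτinj : Function.Injective τ := by
    refine inj_int (aeval x : k[X] →ₐ[k] Ω).toRingHom T hjT (fun v hv => (hT v).1 hv) τ ?_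
    intro p hp
    rw [hτ] at hp
    exact hxtr (hp.trans (map_zero _).symm)
  have htT : ∀ j, t j ∈ T := fun j => (hT _).2 (hti j)
  have hcev : ∀ r, ev (Polynomial.C r) = i r := fun r => Polynomial.eval₂_C i (φ x)
  have hcB : ∀ r, i r ∈ B := fun r => by
    rw [← hcev]
    apply hB
    exact ⟨X - Polynomial.C (Polynomial.C r), monic_X_sub_C _, by
      rw [eval₂_sub, eval₂_X, eval₂_C, sub_self]⟩
  have hGc : ∀ r, G ⟨i r, hcB r⟩ = (s r : Ω) := by
    intro r
    have hm : ev (Polynomial.C r) ∈ B := by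
      rw [hcev]
      exact hcB r
    have h1 : (⟨i r, hcB r⟩ : B) = ⟨ev (Polynomial.C r), hm⟩ := Subtype.ext (hcev r).symm
    rw [h1, hG]
    exact Polynomial.eval₂_C _ _
  have hsum' : ∑ j, (⟨i (c j), hcB _⟩ : B) * ⟨φ (t j), hTB _ (htT j)⟩ = 0 := by
    apply Subtype.ext
    rw [AddSubmonoidClass.coe_finsetSum]
    exact hsum
  have h1 := congrArg G hsum'
  rw [map_sum, map_zero] at h1
  have h2 : τ (∑ j, ⟨_, hjT (Polynomial.C (s (c j)))⟩ * ⟨t j, htT j⟩) = 0 := by
    rw [map_sum, ← h1]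
    refine Finset.sum_congr rfl fun j _ => ?_
    rw [map_mul, map_mul, hτ, hGc, aeval_C]
    rfl
  have h3 := hτinj (h2.trans (map_zero τ).symm)
  have h5 := congrArg (fun v : T => (v : Ω)) h3
  simp only [AddSubmonoidClass.coe_finsetSum] at h5
  refine Eq.trans ?_ h5
  refine Finset.sum_congr rfl fun j _ => ?_
  have h6 : ((⟨_, hjT (Polynomial.C (s (c j)))⟩ * ⟨t j, htT j⟩ : T) : Ω) =
      aeval x (Polynomial.C (s (c j))) * t j := rfl
  rw [h6, aeval_C]
  rfl


/-- Integral multiples. -/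
theorem int_mul (hx : Transcendental k x) {e : Ω}
    (he : IsAlgebraic (k ⊔ IntermediateField.adjoin ℂ {x} : IntermediateField ℂ Ω) e) :
    ∃ d : k[X], d ≠ 0 ∧ ∃ p : k[X][X], p.Monic ∧
      p.eval₂ (aeval x : k[X] →ₐ[k] Ω).toRingHom (aeval x d * e) = 0 := by
  letI : Algebra k[X] Ω := (aeval x : k[X] →ₐ[k] Ω).toRingHom.toAlgebra
  let E : IntermediateField ℂ Ω := k ⊔ IntermediateField.adjoin ℂ {x}
  have hmem : ∀ p : k[X], (aeval x : k[X] →ₐ[k] Ω).toRingHom p ∈ E := by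
    intro p
    change aeval x p ∈ E
    rw [Polynomial.aeval_def, Polynomial.eval₂_eq_sum_range]
    refine sum_mem fun i _ => mul_mem ?_ (pow_mem ?_ i)
    · exact (le_sup_left : k ≤ E) (p.coeff i).2
    · exact (le_sup_right : IntermediateField.adjoin ℂ {x} ≤ E)
        (IntermediateField.mem_adjoin_simple_self ℂ x)
  letI : Algebra k[X] E := ((aeval x : k[X] →ₐ[k] Ω).toRingHom.codRestrict E.toSubfield
    hmem).toAlgebra
  haveI : IsScalarTower k[X] E Ω := IsScalarTower.of_algebraMap_eq fun p => rfl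
  haveI : Algebra.IsAlgebraic k[X] E := by
    constructor
    intro a
    obtain ⟨p, d, hd, h1⟩ := exists_fractionB hx a.2
    refine ⟨Polynomial.C d * X - Polynomial.C p, ?_, ?_⟩
    · intro h0
      have h2 := congrArg (fun q : k[X][X] => q.coeff 1) h0
      simp at h2
      exact hd h2
    · apply Subtype.ext
      rw [map_sub, map_mul, aeval_C, aeval_C, aeval_X]
      change aeval x d * (a : Ω) - aeval x p = 0
      rw [mul_comm, h1, sub_self]
  have h1 : IsAlgebraic k[X] e := IsAlgebraic.restrictScalars k[X] he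
  obtain ⟨d, hd, p, hp, hpe⟩ := h1.exists_integral_multiple
  refine ⟨d, hd, p, hp, ?_⟩
  rw [Algebra.smul_def] at hpe
  exact hpe

theorem closed_base (hk : ∀ e : Ω, IsAlgebraic k e → e ∈ k) : IsAlgClosed k := by
  apply IsAlgClosed.of_exists_root
  intro p hp hirr
  obtain ⟨z, hz⟩ := IsAlgClosed.exists_aeval_eq_zero Ω p
    (Polynomial.degree_pos_of_irreducible hirr).ne'
  have hzk : z ∈ k := hk z ⟨p, hirr.ne_zero, hz⟩
  refine ⟨⟨z, hzk⟩, ?_⟩
  have h1 : (algebraMap k Ω) (p.eval ⟨z, hzk⟩) = 0 := by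
    rw [← Polynomial.aeval_algebraMap_apply_eq_algebraMap_eval]
    exact hz
  exact (map_eq_zero_iff _ (algebraMap k Ω).injective).1 h1

/-- **Linear independence over a closed field.** -/
theorem ld_indep (hk : ∀ e : Ω, IsAlgebraic k e → e ∈ k)
    (htop : ∀ w : Ω, IsAlgebraic (k ⊔ IntermediateField.adjoin ℂ {x} : IntermediateField ℂ Ω) w)
    (lam : k →ₐ[ℂ] N) (M : IntermediateField ℂ N) (hM : ∀ v, IsAlgebraic M v → v ∈ M)
    (hlamM : ∀ e, lam e ∈ M) (φ : Ω →ₐ[ℂ] N) (hφ : ∀ e : k, φ e = lam e) (hx : φ x ∉ M)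
    {J : Type} [Fintype J] (t : J → Ω) (c : J → N) (hc : ∀ j, c j ∈ M)
    (ht : LinearIndependent k t) (hsum : ∑ j, c j * φ (t j) = 0) (j₀ : J) : c j₀ = 0 := by
  classical
  by_contra hj₀
  haveI : IsAlgClosed k := closed_base hk
  have hxt : Transcendental k x := by
    rintro ⟨p, hp0, hp⟩
    have h1 : x ∈ k := hk x ⟨p, hp0, hp⟩
    apply hx
    rw [show φ x = lam ⟨x, h1⟩ from hφ ⟨x, h1⟩]
    exact hlamM _
  letI : Algebra k N := lam.toRingHom.toAlgebra
  let R₀ : Subalgebra k N := Algebra.adjoin k (Set.range c ∪ {(c j₀)⁻¹})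
  have hR₀M : ∀ r ∈ R₀, r ∈ M := by
    intro r hr
    induction hr using Algebra.adjoin_induction with
    | mem a ha =>
      rcases ha with ⟨j, rfl⟩ | rfl
      · exact hc j
      · exact inv_mem (hc j₀)
    | algebraMap r => exact hlamM r
    | add a b _ _ h1 h2 => exact add_mem h1 h2
    | mul a b _ _ h1 h2 => exact mul_mem h1 h2
  have hcR : ∀ j, c j ∈ R₀ := fun j => Algebra.subset_adjoin (Or.inl ⟨j, rfl⟩)
  have hiR : (c j₀)⁻¹ ∈ R₀ := Algebra.subset_adjoin (Or.inr rfl)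
  haveI : Algebra.FiniteType k R₀ := by
    rw [← Subalgebra.fg_iff_finiteType]
    exact ⟨(Set.toFinite (Set.range c ∪ {(c j₀)⁻¹})).toFinset, by simp [R₀]⟩
  obtain ⟨s⟩ := exists_spec (k := k) (R := R₀)
  choose d hd p hp hpt using fun j => int_mul hxt (htop (t j))
  -- a common multiple
  let D : k[X] := ∏ j, d j
  have hD : D ≠ 0 := Finset.prod_ne_zero_iff.2 fun j _ => hd j
  have hDt : ∀ j, ∃ q : k[X][X], q.Monic ∧
      q.eval₂ (aeval x : k[X] →ₐ[k] Ω).toRingHom (aeval x D * t j) = 0 := by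
    intro j
    obtain ⟨T, hT⟩ := exists_T (aeval x : k[X] →ₐ[k] Ω).toRingHom
    rw [← hT]
    have h1 : aeval x D * t j =
        aeval x (∏ i ∈ Finset.univ.erase j, d i) * (aeval x (d j) * t j) := by
      rw [← mul_assoc, ← map_mul, mul_comm _ (d j), Finset.mul_prod_erase _ _ (Finset.mem_univ j)]
    rw [h1]
    refine T.mul_mem ((hT _).2 ⟨X - Polynomial.C (∏ i ∈ Finset.univ.erase j, d i),
      monic_X_sub_C _, ?_⟩) ((hT _).2 ⟨p j, hp j, hpt j⟩)
    rw [eval₂_sub, eval₂_X, eval₂_C]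
    exact sub_self _
  have hD0 : (aeval x D : Ω) ≠ 0 := fun h0 => hxt ⟨D, hD, h0⟩
  have key := ld_spec lam M hM φ hφ hx (R := R₀) (algebraMap R₀ N)
    (FaithfulSMul.algebraMap_injective R₀ N) (fun r => hR₀M _ r.2) (fun e => rfl) s
    (fun j => aeval x D * t j) (fun j => ⟨c j, hcR j⟩) hDt (by
      have h1 : φ (aeval x D) * ∑ j, c j * φ (t j) = 0 := by rw [hsum, mul_zero]
      rw [Finset.mul_sum] at h1
      rw [← h1]
      refine Finset.sum_congr rfl fun j _ => ?_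
      rw [map_mul]
      change c j * _ = _
      ring)
  have h4 : ∑ j, s ⟨c j, hcR j⟩ • t j = 0 := by
    apply mul_left_cancel₀ hD0
    rw [mul_zero, ← key, Finset.mul_sum]
    refine Finset.sum_congr rfl fun j _ => ?_
    rw [Algebra.smul_def]
    change _ * (((s ⟨c j, hcR j⟩ : k) : Ω) * _) = _
    ring
  have h5 := Fintype.linearIndependent_iff.1 ht _ h4 j₀
  have h6 : s ⟨c j₀, hcR j₀⟩ * s ⟨(c j₀)⁻¹, hiR⟩ = 1 := by
    rw [← map_mul, ← map_one s]
    congr 1
    exact Subtype.ext (mul_inv_cancel₀ hj₀)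
  rw [h5, zero_mul] at h6
  exact zero_ne_one h6


/-- **Linear disjointness.** -/
theorem disjC (hk : ∀ e : Ω, IsAlgebraic k e → e ∈ k)
    (htop : ∀ w : Ω, IsAlgebraic (k ⊔ IntermediateField.adjoin ℂ {x} : IntermediateField ℂ Ω) w)
    (lam : k →ₐ[ℂ] N) (M : IntermediateField ℂ N) (hM : ∀ v, IsAlgebraic M v → v ∈ M)
    (hlamM : ∀ e, lam e ∈ M) (φ : Ω →ₐ[ℂ] N) (hφ : ∀ e : k, φ e = lam e) (hx : φ x ∉ M)
    {J : Type} [Fintype J] (t : J → Ω) (c : J → N) (hc : ∀ j, c j ∈ M)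
    (hsum : ∑ j, c j * φ (t j) = 0) (ξ : J → k)
    (hξ : ∀ a : J → k, ∑ j, (a j : Ω) * t j = 0 →
      ∑ j, a j * ξ j = 0) : ∑ j, c j * lam (ξ j) = 0 := by
  classical
  let V : Submodule k Ω := Submodule.span k (Set.range t)
  haveI : FiniteDimensional k V := FiniteDimensional.span_of_finite k (Set.finite_range t)
  haveI : Module.Free k V := Module.Free.of_divisionRing k V
  let b := Module.finBasis k V
  have htV : ∀ j, t j ∈ V := fun j => Submodule.subset_span ⟨j, rfl⟩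
  have hbt : ∀ m, ∃ e : J → k, ∑ j, e j • t j = (b m : Ω) := fun m =>
    (Submodule.mem_span_range_iff_exists_fun k).1 (b m).2
  choose e he using hbt
  let a : J → Fin (Module.finrank k V) → k := fun j m => b.repr ⟨t j, htV j⟩ m
  have hta : ∀ j, t j = ∑ m, (a j m : Ω) * (b m : Ω) := by
    intro j
    have h1 := congrArg (fun v : V => (v : Ω)) (b.sum_repr ⟨t j, htV j⟩)
    simp only [AddSubmonoidClass.coe_finsetSum] at h1
    exact h1.symm
  have hind : LinearIndependent k fun m => (b m : Ω) :=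
    b.linearIndependent.map' V.subtype V.ker_subtype
  have h1 : ∀ m, ∑ j, c j * lam (a j m) = 0 := by
    apply ld_indep hk htop lam M hM hlamM φ hφ hx (fun m => (b m : Ω))
      (fun m => ∑ j, c j * lam (a j m)) (fun m => sum_mem fun j _ => mul_mem (hc j) (hlamM _)) hind
    rw [← hsum]
    have h2 : ∀ j, c j * φ (t j) = ∑ m, c j * lam (a j m) * φ (b m) := by
      intro j
      conv_lhs => rw [hta j]
      rw [map_sum, Finset.mul_sum]
      refine Finset.sum_congr rfl fun m _ => ?_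
      rw [map_mul, hφ, mul_assoc]
    rw [Finset.sum_congr rfl fun j _ => h2 j, Finset.sum_comm]
    exact Finset.sum_congr rfl fun m _ => Finset.sum_mul _ _ _
  let η : Fin (Module.finrank k V) → k := fun m => ∑ i, e m i * ξ i
  have h3 : ∀ j, ξ j = ∑ m, a j m * η m := by
    intro j
    have h4 := hξ (fun i => (if i = j then 1 else 0) - ∑ m, a j m * e m i) (by
      have h5 : ∀ i, (((if i = j then 1 else 0) - ∑ m, a j m * e m i : k) : Ω) * t i =
          (if i = j then t i else 0) - ∑ m, (a j m : Ω) * ((e m i : Ω) * t i) := by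
        intro i
        push_cast
        rw [sub_mul, Finset.sum_mul]
        congr 1
        · split_ifs <;> simp
        · exact Finset.sum_congr rfl fun m _ => mul_assoc _ _ _
      rw [Finset.sum_congr rfl fun i _ => h5 i, Finset.sum_sub_distrib,
        Finset.sum_ite_eq' Finset.univ j, if_pos (Finset.mem_univ j), Finset.sum_comm]
      have h6 : ∀ m, ∑ i, (a j m : Ω) * ((e m i : Ω) * t i) = (a j m : Ω) * (b m : Ω) := by
        intro m
        rw [← Finset.mul_sum, ← he m]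
        rfl
      rw [Finset.sum_congr rfl fun m _ => h6 m, ← hta j, sub_self])
    have h7 : ∀ i, ((if i = j then 1 else 0) - ∑ m, a j m * e m i) * ξ i =
        (if i = j then ξ i else 0) - ∑ m, a j m * (e m i * ξ i) := by
      intro i
      rw [sub_mul, Finset.sum_mul]
      congr 1
      · split_ifs <;> simp
      · exact Finset.sum_congr rfl fun m _ => mul_assoc _ _ _
    rw [Finset.sum_congr rfl fun i _ => h7 i, Finset.sum_sub_distrib,
      Finset.sum_ite_eq' Finset.univ j, if_pos (Finset.mem_univ j), Finset.sum_comm,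
      sub_eq_zero] at h4
    rw [h4]
    refine Finset.sum_congr rfl fun m _ => ?_
    rw [Finset.mul_sum]
  have h8 : ∀ j, c j * lam (ξ j) = ∑ m, c j * lam (a j m) * lam (η m) := by
    intro j
    conv_lhs => rw [h3 j]
    rw [map_sum, Finset.mul_sum]
    refine Finset.sum_congr rfl fun m _ => ?_
    rw [map_mul, mul_assoc]
  rw [Finset.sum_congr rfl fun j _ => h8 j, Finset.sum_comm]
  apply Finset.sum_eq_zero
  intro m _
  rw [← Finset.sum_mul, h1 m, zero_mul]

end

theorem two_closures {F N₁ N₂ : Type} [Field F] [Field N₁] [Field N₂] [IsAlgClosed N₁]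
    [IsAlgClosed N₂] (i₁ : F →+* N₁) (i₂ : F →+* N₂)
    (h₁ : ∀ u : N₁, ∃ p : F[X], p ≠ 0 ∧ p.eval₂ i₁ u = 0)
    (h₂ : ∀ u : N₂, ∃ p : F[X], p ≠ 0 ∧ p.eval₂ i₂ u = 0) :
    ∃ θ : N₁ ≃+* N₂, ∀ a, θ (i₁ a) = i₂ a := by
  letI : Algebra F N₁ := i₁.toAlgebra
  letI : Algebra F N₂ := i₂.toAlgebra
  haveI : Algebra.IsAlgebraic F N₁ := ⟨fun u => h₁ u⟩
  haveI : Algebra.IsAlgebraic F N₂ := ⟨fun u => h₂ u⟩
  haveI : IsAlgClosure F N₁ := ⟨inferInstance, inferInstance⟩
  haveI : IsAlgClosure F N₂ := ⟨inferInstance, inferInstance⟩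
  let θ := IsAlgClosure.equiv F N₁ N₂
  exact ⟨θ.toRingEquiv, fun a => θ.commutes a⟩


theorem lift_alg {F N : Type} [Field F] [Field N] [Algebra ℂ N] (M : IntermediateField ℂ N)
    (i : F →+* N) (v : N) (hM : ∀ m ∈ M, ∃ z, i z = m) (hv : ∃ z, i z = v)
    (hal : ∀ u : N, IsAlgebraic (IntermediateField.adjoin M {v}) u) (u : N) :
    ∃ p : F[X], p ≠ 0 ∧ p.eval₂ i u = 0 := by
  have hran : ∀ a ∈ IntermediateField.adjoin M {v}, ∃ z : F, i z = a := by
    intro a ha
    induction ha using IntermediateField.adjoin_induction with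
    | mem a ha =>
      rcases ha with rfl
      exact hv
    | algebraMap m => exact hM _ m.2
    | add a b _ _ h1 h2 =>
      obtain ⟨z, rfl⟩ := h1
      obtain ⟨z', rfl⟩ := h2
      exact ⟨z + z', map_add _ _ _⟩
    | mul a b _ _ h1 h2 =>
      obtain ⟨z, rfl⟩ := h1
      obtain ⟨z', rfl⟩ := h2
      exact ⟨z * z', map_mul _ _ _⟩
    | inv a _ h1 =>
      obtain ⟨z, rfl⟩ := h1
      exact ⟨z⁻¹, map_inv₀ _ _⟩
  obtain ⟨P, hP0, hP⟩ := hal u
  obtain ⟨Q, hQ⟩ : ∃ Q : F[X], Q.map i = P.map (algebraMap _ N) := by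
    have h1 : P.map (algebraMap _ N) ∈ Polynomial.lifts i := by
      rw [Polynomial.lifts_iff_coeff_lifts]
      intro n
      rw [coeff_map]
      exact hran _ (P.coeff n).2
    exact (Polynomial.mem_lifts _).1 h1
  refine ⟨Q, ?_, ?_⟩
  · rintro rfl
    rw [Polynomial.map_zero] at hQ
    exact hP0 ((Polynomial.map_eq_zero_iff (FaithfulSMul.algebraMap_injective _ N)).1 hQ.symm)
  · rw [← Polynomial.eval_map, hQ, Polynomial.eval_map]
    exact hP

theorem two_homs {A N : Type} [CommRing A] [Field N] [Algebra ℂ N] [IsAlgClosed N]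
    (M : IntermediateField ℂ N) (Φ Ψ : A →+* N) (hΦ : Function.Injective Φ)
    (hΨ : Function.Injective Ψ) (v v' : N) (hM : ∀ m ∈ M, ∃ z, Φ z = m)
    (hM' : ∀ m ∈ M, ∃ z, Ψ z = m) (hv : ∃ z, Φ z = v) (hv' : ∃ z, Ψ z = v')
    (hal : ∀ u : N, IsAlgebraic (IntermediateField.adjoin M {v}) u)
    (hal' : ∀ u : N, IsAlgebraic (IntermediateField.adjoin M {v'}) u) :
    ∃ θ : N ≃+* N, ∀ z, θ (Φ z) = Ψ z := by
  haveI : IsDomain A := hΦ.isDomain Φ
  let i₁ : FractionRing A →+* N := IsFractionRing.lift (A := A) (K := FractionRing A) hΦ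
  let i₂ : FractionRing A →+* N := IsFractionRing.lift (A := A) (K := FractionRing A) hΨ
  have hi₁ : ∀ z, i₁ (algebraMap _ _ z) = Φ z := fun z => IsFractionRing.lift_algebraMap hΦ z
  have hi₂ : ∀ z, i₂ (algebraMap _ _ z) = Ψ z := fun z => IsFractionRing.lift_algebraMap hΨ z
  obtain ⟨θ, hθ⟩ := two_closures i₁ i₂
    (lift_alg M i₁ v (fun m hm => by
      obtain ⟨z, hz⟩ := hM m hm
      exact ⟨_, (hi₁ z).trans hz⟩) (by
      obtain ⟨z, hz⟩ := hv
      exact ⟨_, (hi₁ z).trans hz⟩) hal)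
    (lift_alg M i₂ v' (fun m hm => by
      obtain ⟨z, hz⟩ := hM' m hm
      exact ⟨_, (hi₂ z).trans hz⟩) (by
      obtain ⟨z, hz⟩ := hv'
      exact ⟨_, (hi₂ z).trans hz⟩) hal')
  exact ⟨θ, fun z => by rw [← hi₁, hθ, hi₂]⟩

section

variable {Ω N : Type} [Field Ω] [Algebra ℂ Ω] [IsAlgClosed Ω] [Field N] [Algebra ℂ N]
  [IsAlgClosed N] {k : IntermediateField ℂ Ω} {x : Ω}

open TensorProduct in
/-- The compositum. -/
theorem tensor_inj (hk : ∀ e : Ω, IsAlgebraic k e → e ∈ k)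
    (htop : ∀ w : Ω, IsAlgebraic (k ⊔ IntermediateField.adjoin ℂ {x} : IntermediateField ℂ Ω) w)
    (lam : k →ₐ[ℂ] N) (M : IntermediateField ℂ N) (hM : ∀ v, IsAlgebraic M v → v ∈ M)
    (hlamM : ∀ e, lam e ∈ M) (φ : Ω →ₐ[ℂ] N) (hφ : ∀ e : k, φ e = lam e) (hx : φ x ∉ M)
    [Algebra k M] (Φ : Ω ⊗[k] M →+* N) (hΦ : ∀ (u : Ω) (m : M), Φ (u ⊗ₜ m) = φ u * m) :
    Function.Injective Φ := by
  classical
  rw [injective_iff_map_eq_zero]
  intro z hz
  let b := Module.Free.chooseBasis k Ω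
  obtain ⟨c, rfl⟩ := TensorProduct.eq_repr_basis_left (N := M) b z
  rw [Finsupp.sum, map_sum] at hz
  have h1 : ∑ i : c.support, ((c i : M) : N) * φ (b i) = 0 := by
    rw [Finset.sum_coe_sort c.support (fun i => ((c i : M) : N) * φ (b i)), ← hz]
    refine Finset.sum_congr rfl fun i _ => ?_
    rw [hΦ, mul_comm]
  have h2 := ld_indep hk htop lam M hM hlamM φ hφ hx (fun i : c.support => b i)
    (fun i => ((c i : M) : N)) (fun i => (c i).2)
    (b.linearIndependent.comp _ Subtype.val_injective) h1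
  have h3 : c.support = ∅ := by
    rw [Finset.eq_empty_iff_forall_notMem]
    intro i hi
    exact (Finsupp.mem_support_iff.1 hi) (Subtype.ext (h2 ⟨i, hi⟩))
  rw [Finsupp.sum, h3, Finset.sum_empty]

open TensorProduct in
/-- **Conjugation of embeddings.** -/
theorem autC_ext (hk : ∀ e : Ω, IsAlgebraic k e → e ∈ k)
    (htop : ∀ w : Ω, IsAlgebraic (k ⊔ IntermediateField.adjoin ℂ {x} : IntermediateField ℂ Ω) w)
    (lam : k →ₐ[ℂ] N) (M : IntermediateField ℂ N) (hM : ∀ v, IsAlgebraic M v → v ∈ M)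
    (hlamM : ∀ e, lam e ∈ M) (φ ψ : Ω →ₐ[ℂ] N) (hφ : ∀ e : k, φ e = lam e)
    (hψ : ∀ e : k, ψ e = lam e) (hx : φ x ∉ M) (hx' : ψ x ∉ M)
    (halg : ∀ u : N, IsAlgebraic (IntermediateField.adjoin M {φ x}) u)
    (halg' : ∀ u : N, IsAlgebraic (IntermediateField.adjoin M {ψ x}) u) :
    ∃ θ : N ≃ₐ[ℂ] N, (∀ m ∈ M, θ m = m) ∧ ∀ w, θ (φ w) = ψ w := by
  classical
  letI : Algebra k N := lam.toRingHom.toAlgebra
  letI : Algebra k M := (lam.toRingHom.codRestrict M.toSubfield hlamM).toAlgebra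
  have hex : ∀ χ : Ω →ₐ[ℂ] N, (∀ e : k, χ e = lam e) → ∃ Φ : Ω ⊗[k] M →+* N,
      ∀ (u : Ω) (m : M), Φ (u ⊗ₜ m) = χ u * m := by
    intro χ hχ
    let χ' : Ω →ₐ[k] N := { χ.toRingHom with commutes' := hχ }
    let j' : M →ₐ[k] N := { M.val.toRingHom with commutes' := fun e => rfl }
    exact ⟨(Algebra.TensorProduct.productMap χ' j').toRingHom, fun u m =>
      Algebra.TensorProduct.productMap_apply_tmul χ' j' u m⟩
  obtain ⟨Φ, hΦ⟩ := hex φ hφ
  obtain ⟨Ψ, hΨ⟩ := hex ψ hψ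
  have hΦi := tensor_inj hk htop lam M hM hlamM φ hφ hx Φ hΦ
  have hΨi := tensor_inj hk htop lam M hM hlamM ψ hψ hx' Ψ hΨ
  obtain ⟨θ, hθΦ⟩ := two_homs M Φ Ψ hΦi hΨi (φ x) (ψ x)
    (fun m hm => ⟨(1 : Ω) ⊗ₜ (⟨m, hm⟩ : M), by rw [hΦ, map_one, one_mul]⟩)
    (fun m hm => ⟨(1 : Ω) ⊗ₜ (⟨m, hm⟩ : M), by rw [hΨ, map_one, one_mul]⟩)
    ⟨x ⊗ₜ (1 : M), by rw [hΦ]; simp⟩ ⟨x ⊗ₜ (1 : M), by rw [hΨ]; simp⟩ halg halg'
  have hθM : ∀ m ∈ M, θ m = m := by
    intro m hm
    have h1 := hθΦ ((1 : Ω) ⊗ₜ (⟨m, hm⟩ : M))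
    rw [hΦ, hΨ, map_one, map_one, one_mul] at h1
    exact h1
  refine ⟨AlgEquiv.ofRingEquiv (f := θ) (fun r => ?_), hθM, fun w => ?_⟩
  · exact hθM _ (M.algebraMap_mem r)
  · have h1 := hθΦ (w ⊗ₜ (1 : M))
    rw [hΦ, hΨ] at h1
    simpa using h1

end

end Vale.Agent.P297.Cc
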