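import Vale.Agent.P297.Cc.Fam

/-!
The residual points determine the fibres up to algebraic dependence: correspondences.
-/

set_option linter.unusedSectionVars false
set_option linter.style.haveILetI false

open CategoryTheory AlgebraicGeometry IntermediateField Polynomial

namespace Vale.Agent.P297.Cc

open Vale.Agent.P297 Vale.Agent.P297.H839 Vale.Agent.P297.H516 Vale.Agent.P297.H878
  Vale.Agent.P297.Gen Vale.Agent.P297.Gg Vale.Agent.P297.Jj Vale.Agent.P297.Tw

variable {W : Type} [Field W] [Algebra ℂ W] {g : ℕ} {k : IntermediateField ℂ W} {l x y : W}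
  {f : k[X]} {N : Type} [Field N] [Algebra ℂ N]

theorem CPencil.y_ne (h : CPencil g k l x y f) : y ≠ 0 := by
  intro hy
  have h1 : aeval x f = 0 := by
    rw [← h.eq, hy, zero_pow two_ne_zero]
  exact h.trans_x ⟨f, h.sqf.ne_zero, h1⟩

/-- The sum over the fibre is the trace. -/
theorem sum_eq_traceC [IsAlgClosed N] {G : IntermediateField ℂ W} (hx : IsAlgebraic G x) {n : ℕ}
    (hn : (minpoly G x).natDegree = n) (hpos : 0 < n) (σ : Fin n → (W →ₐ[ℂ] N))
    (hinj : Function.Injective fun i => σ i x) (hagree : ∀ i j, ∀ u ∈ G, σ i u = σ j u)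
    (u : IntermediateField.adjoin G ({x} : Set W)) :
    ∑ i, σ i (u : W) = σ ⟨0, hpos⟩ ((Algebra.trace G (IntermediateField.adjoin G {x}) u : G) : W) := by
  haveI : CharZero G := charZero_of_injective_algebraMap (algebraMap ℂ G).injective
  haveI : FiniteDimensional G (IntermediateField.adjoin G ({x} : Set W)) :=
    IntermediateField.adjoin.finiteDimensional hx.isIntegral
  have hfin : Module.finrank G (IntermediateField.adjoin G ({x} : Set W)) = n := by
    rw [IntermediateField.adjoin.finrank hx.isIntegral, hn]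
  let i₀ : Fin n := ⟨0, hpos⟩
  letI : Algebra G N := ((σ i₀).comp G.val).toRingHom.toAlgebra
  have halg : ∀ v : G, algebraMap G N v = σ i₀ v := fun _ => rfl
  let e : Fin n → (IntermediateField.adjoin G ({x} : Set W) →ₐ[G] N) := fun i =>
    { (σ i).toRingHom.comp (algebraMap (IntermediateField.adjoin G ({x} : Set W)) W) with
      commutes' := fun v => hagree i i₀ v v.2 }
  have he : ∀ i (v : IntermediateField.adjoin G ({x} : Set W)), e i v = σ i v := fun _ _ => rfl
  have heinj : Function.Injective e := by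
    intro i j hij
    apply hinj
    exact congrArg (fun ψ : IntermediateField.adjoin G ({x} : Set W) →ₐ[G] N =>
      ψ ⟨x, IntermediateField.mem_adjoin_simple_self G x⟩) hij
  have hbij : Function.Bijective e := by
    rw [Fintype.bijective_iff_injective_and_card]
    refine ⟨heinj, ?_⟩
    rw [AlgHom.card G (IntermediateField.adjoin G ({x} : Set W)) N, Fintype.card_fin, hfin]
  have h1 := trace_eq_sum_embeddings (K := G) (L := IntermediateField.adjoin G ({x} : Set W)) N
    (x := u)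
  rw [halg] at h1
  have h2 := (Equiv.ofBijective e hbij).sum_comp
    (fun ψ : IntermediateField.adjoin G ({x} : Set W) →ₐ[G] N => ψ u)
  rw [← h1] at h2
  exact h2

/-- The domination property. -/
theorem dom_C [IsAlgClosed N] (h : CPencil g k l x y f)
    (lam : k →ₐ[ℂ] N) (L : IntermediateField ℂ N)
    (hlamL : ∀ e, lam e ∈ L) {n : Fin g → ℕ} (hpos : ∀ b, 0 < n b) {κ : Type} [Fintype κ]
    (σ : (Σ b, Fin (n b)) → (W →ₐ[ℂ] N)) (ρ : κ → (W →ₐ[ℂ] N))
    (hσ : ∀ i (e : k), Sum.elim σ ρ i e = lam e)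
    (hinj : Function.Injective fun i => Sum.elim σ ρ i x)
    (G : Fin g → IntermediateField ℂ W)
    (hagree : ∀ b i j, ∀ v ∈ G b, σ ⟨b, i⟩ v = σ ⟨b, j⟩ v)
    (δ : Derivation k W W)
    (hch : ∀ (i : Σ b, Fin (n b)) (D : Derivation ℤ N N), (∀ e : k, D (σ i e) = 0) →
      ∀ u, D (σ i u) = σ i (δ u) * D (σ i x))
    (w : Fin g → W) (hw : ∀ b, w b ∈ G b) (hw0 : ∀ b, δ (w b) ≠ 0)
    (T : Fin g → Fin g → W)
    (hT : ∀ b (j : Fin g), ∑ i, σ ⟨b, i⟩ (x ^ (j : ℕ) / (y * δ (w b))) = σ ⟨b, ⟨0, hpos b⟩⟩ (T b j))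
    (hdet : ∀ e : Fin g → N, (∀ j : Fin g, ∑ b, σ ⟨b, ⟨0, hpos b⟩⟩ (T b j) * e b = 0) → e = 0)
    (α β Q : N[X]) (hQ0 : Q ≠ 0)
    (hG : ∀ i, α.eval (Sum.elim σ ρ i x) + β.eval (Sum.elim σ ρ i x) * Sum.elim σ ρ i y = 0)
    (hN : α ^ 2 - β ^ 2 * f.map lam.toRingHom = (∏ i, (X - C (Sum.elim σ ρ i x))) * Q)
    (M : IntermediateField ℂ N) (hM : ∀ u, IsAlgebraic M u → u ∈ M) (hLM : L ≤ M)
    (hρ : ∀ m, ρ m x ∈ M)
    (hQ : ∀ r, Q.IsRoot r → r ∈ M) (i : Σ b, Fin (n b)) : σ i x ∈ M := by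
  classical
  haveI : CharZero N := charZero_of_injective_algebraMap (algebraMap ℂ N).injective
  have hcoef : ∀ (p : k[X]) (n : ℕ),
      (p.map lam.toRingHom).coeff n ∈ L := by
    intro p n
    rw [coeff_map]
    exact hlamL _
  have hev : ∀ (i : (Σ b, Fin (n b)) ⊕ κ) (p : k[X]),
      Sum.elim σ ρ i (aeval x p) = (p.map lam.toRingHom).eval (Sum.elim σ ρ i x) := by
    intro i p
    rw [Polynomial.eval_map, Polynomial.aeval_def]
    refine (Polynomial.hom_eval₂ p _ (Sum.elim σ ρ i).toRingHom x).trans ?_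
    congr 1
    exact RingHom.ext fun e => hσ i e
  have hne : ∀ (φ : W →ₐ[ℂ] N) (u : W), u ≠ 0 → φ u ≠ 0 := fun φ u hu h0 =>
    hu (φ.toRingHom.injective (h0.trans (map_zero _).symm))
  have hy0 : y ≠ 0 := by
    rintro rfl
    apply h.y_ne
    rfl
  have key : ∀ D : Derivation ℤ N N, (∀ x ∈ M, D x = 0) → D (σ i x) = 0 := by
    intro D hDM
    have hDL : ∀ x ∈ L, D x = 0 := fun x hx => hDM x (hLM hx)
    have hch : ∀ i u, D (σ i u) = σ i (δ u) * D (σ i x) := fun i u =>
      hch i D (fun e => by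
        have := hσ (Sum.inl i) e
        change σ i e = lam e at this
        rw [this]
        exact hDL _ (hlamL e)) u
    have hab : ∀ m, m < g → ∑ i, σ i x ^ m * D (σ i x) / σ i y = 0 := by
      intro m hk
      have h1 := abel (z := fun i => Sum.elim σ ρ i x) (y := fun i => Sum.elim σ ρ i y) D
        (fun n => hDL _ (hcoef f n)) (h.sep.map (f := lam.toRingHom)).squarefree
        (by rw [natDegree_map]; exact h.low) hinj (fun i => by
          rw [← map_pow, h.eq]
          exact hev i f) hG hQ0 hN (fun r hr => hDM r (hQ r hr)) hk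
      rw [Fintype.sum_sum_type] at h1
      simp only [Sum.elim_inl, Sum.elim_inr] at h1
      have h2 : ∑ k', ρ k' x ^ m * D (ρ k' x) / ρ k' y = 0 :=
        Finset.sum_eq_zero fun k' _ => by rw [hDM _ (hρ k'), mul_zero, zero_div]
      rw [h2, add_zero] at h1
      exact h1
    have he := hdet (fun b => D (σ ⟨b, ⟨0, hpos b⟩⟩ (w b))) (by
      intro j
      have h3 := hab j j.2
      rw [Fintype.sum_sigma] at h3
      rw [← h3]
      refine Finset.sum_congr rfl fun b _ => ?_
      rw [← hT b j, Finset.sum_mul]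
      refine Finset.sum_congr rfl fun i _ => ?_
      rw [← hagree b i ⟨0, hpos b⟩ _ (hw b), hch ⟨b, i⟩ (w b), map_div₀, map_mul, map_pow]
      have e1 := hne (σ ⟨b, i⟩) _ (hw0 b)
      have e2 := hne (σ ⟨b, i⟩) _ hy0
      field_simp)
    obtain ⟨b, i⟩ := i
    have h5 := congrFun he b
    simp only [Pi.zero_apply] at h5
    rw [← hagree b i ⟨0, hpos b⟩ _ (hw b), hch ⟨b, i⟩ (w b)] at h5
    exact (mul_eq_zero.1 h5).resolve_left (hne _ _ (hw0 b))
  by_contra hxM
  obtain ⟨D, hD', hDx⟩ := exists_derivation M (w := σ i x) (fun h => hxM (hM _ h))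
  have := key D hD'
  rw [hDx] at this
  exact one_ne_zero this

end Vale.Agent.P297.Cc
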