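import Vale.Agent.P297.Cc.Defs

/-!
The fibre over a generic point of a correspondence.
-/

set_option linter.unusedSectionVars false
set_option linter.style.haveILetI false

open CategoryTheory AlgebraicGeometry IntermediateField Polynomial

namespace Vale.Agent.P297.Cc

open Vale.Agent.P297 Vale.Agent.P297.H839 Vale.Agent.P297.H516 Vale.Agent.P297.H878
  Vale.Agent.P297.Gen Vale.Agent.P297.Gg Vale.Agent.P297.Jj Vale.Agent.P297.Tw

variable {W : Type} [Field W] [Algebra ℂ W] {g : ℕ} {k : IntermediateField ℂ W} {l x y : W}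
  {f : k[X]} {N : Type} [Field N] [Algebra ℂ N]

/-- The fibre over a generic point of a correspondence. -/
structure FamC (lam : k →ₐ[ℂ] N) (L : IntermediateField ℂ N)
    (G : IntermediateField ℂ W) {n : ℕ} (x : W) (v : N) (σ : Fin n → (W →ₐ[ℂ] N)) : Prop where
  base : ∀ i (e : k), σ i e = lam e
  inj : Function.Injective fun i => σ i x
  agree : ∀ i j, ∀ u ∈ G, σ i u = σ j u
  full : ∀ φ : W →ₐ[ℂ] N, (∀ i, ∀ u ∈ G, φ u = σ i u) → ∃ i, φ x = σ i x
  down : ∀ i (M : IntermediateField ℂ N), (∀ a, IsAlgebraic M a → a ∈ M) → L ≤ M →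
    σ i x ∈ M → v ∈ M
  up : ∀ i (M : IntermediateField ℂ N), (∀ a, IsAlgebraic M a → a ∈ M) → L ≤ M →
    v ∈ M → σ i x ∈ M

theorem CPencil.alg_over (h : CPencil g k l x y f) {G : IntermediateField ℂ W} (hkG : k ≤ G)
    (hx : IsAlgebraic G x) (w : W) : IsAlgebraic G w := by
  have hle : ∀ u ∈ k ⊔ IntermediateField.adjoin ℂ {x}, u ∈ IntermediateField.adjoin G {x} := by
    intro u hu
    refine sup_induction (P := fun u => u ∈ IntermediateField.adjoin G {x}) ?_ ?_ ?_ ?_ ?_ hu
    · intro e he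
      exact (IntermediateField.adjoin G {x}).algebraMap_mem ⟨e, hkG he⟩
    · exact IntermediateField.mem_adjoin_simple_self G x
    · intro a b ha hb
      exact add_mem ha hb
    · intro a b ha hb
      exact mul_mem ha hb
    · intro a ha
      exact inv_mem ha
  let ι : (k ⊔ IntermediateField.adjoin ℂ {x} : IntermediateField ℂ W) →+*
      IntermediateField.adjoin G {x} :=
    { toFun := fun u => ⟨u, hle u u.2⟩
      map_one' := rfl
      map_zero' := rfl
      map_mul' := fun _ _ => rfl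
      map_add' := fun _ _ => rfl }
  haveI h1 : Algebra.IsAlgebraic (IntermediateField.adjoin G {x}) W := by
    constructor
    intro u
    obtain ⟨p, hp0, hp⟩ := h.top u
    refine ⟨p.map ι, (Polynomial.map_ne_zero_iff ι.injective).2 hp0, ?_⟩
    rw [Polynomial.aeval_def, Polynomial.eval₂_map]
    exact hp
  haveI h2 : Algebra.IsAlgebraic G (IntermediateField.adjoin G {x}) :=
    IntermediateField.isAlgebraic_adjoin_simple hx.isIntegral
  exact (Algebra.IsAlgebraic.trans G (IntermediateField.adjoin G {x}) W).isAlgebraic w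

/-- Two embeddings that agree on `G` and on `x` agree on `G(x)`. -/
theorem agree_sup {G : IntermediateField ℂ W} {φ ψ : W →ₐ[ℂ] N} (hG : ∀ u ∈ G, φ u = ψ u)
    (hx : φ x = ψ x) {u : W} (hu : u ∈ G ⊔ IntermediateField.adjoin ℂ {x}) : φ u = ψ u := by
  refine sup_induction (P := fun u => φ u = ψ u) hG hx ?_ ?_ ?_ hu
  · intro a b ha hb
    rw [map_add, map_add, ha, hb]
  · intro a b ha hb
    rw [map_mul, map_mul, ha, hb]
  · intro a ha
    rw [map_inv₀, map_inv₀, ha]

theorem exists_famC [IsAlgClosed N] (h : CPencil g k l x y f)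
    (lam : k →ₐ[ℂ] N) (L : IntermediateField ℂ N) (hlamL : ∀ e, lam e ∈ L)
    (G : IntermediateField ℂ W) (hkG : k ≤ G) (hx : IsAlgebraic G x) {n : ℕ}
    (hn : (minpoly G x).natDegree = n) {v : N}
    (hv : AlgebraicIndependent ℂ ![lam ⟨l, h.mem⟩, v]) :
    ∃ σ : Fin n → (W →ₐ[ℂ] N), FamC lam L G x v σ := by
  classical
  obtain ⟨Θ, hΘ, hΘx⟩ := h.emb lam hv
  haveI : CharZero G := charZero_of_injective_algebraMap (algebraMap ℂ G).injective
  haveI : Algebra.IsAlgebraic G W := ⟨h.alg_over hkG hx⟩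
  letI : Algebra G N := (Θ.comp G.val).toRingHom.toAlgebra
  have halg : ∀ u : G, algebraMap G N u = Θ u := fun _ => rfl
  have hint : IsIntegral G x := hx.isIntegral
  have hpos : 0 < n := by
    rw [← hn]
    exact minpoly.natDegree_pos hint
  have hcard : Fintype.card ((minpoly G x).rootSet N) = n := by
    rw [← hn]
    exact Polynomial.card_rootSet_eq_natDegree (minpoly.irreducible hint).separable
      (IsAlgClosed.splits _)
  let e : Fin n ≃ (minpoly G x).rootSet N := (Fintype.equivFinOfCardEq hcard).symm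
  have hex : ∀ i : Fin n, ∃ ψ : W →ₐ[G] N, ψ x = e i := by
    intro i
    have h1 : (e i : N) ∈ Set.range (fun ψ : W →ₐ[G] N => ψ x) := by
      rw [Algebra.IsAlgebraic.range_eval_eq_rootSet_minpoly]
      exact (e i).2
    exact h1
  choose ψ hψ using hex
  have hcomm : ∀ (ψ : W →ₐ[G] N), ∀ u ∈ G, ψ u = Θ u := fun ψ u hu => ψ.commutes ⟨u, hu⟩
  let σ : Fin n → (W →ₐ[ℂ] N) := fun i =>
    { (ψ i).toRingHom with
      commutes' := fun r => by
        change ψ i (algebraMap ℂ W r) = _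
        rw [hcomm (ψ i) _ (G.algebraMap_mem r), Θ.commutes] }
  have hσ : ∀ i u, σ i u = ψ i u := fun _ _ => rfl
  have hσG : ∀ i, ∀ u ∈ G, σ i u = Θ u := fun i u hu => hcomm (ψ i) u hu
  have hbase : ∀ i (r : k), σ i r = lam r := fun i r => by
    rw [hσG i _ (hkG r.2), hΘ]
  refine ⟨σ, hbase, ?_, fun i j u hu => by rw [hσG i u hu, hσG j u hu], ?_, ?_, ?_⟩
  · intro i j hij
    apply e.injective
    apply Subtype.ext
    rw [← hψ, ← hψ]
    exact hij
  · intro φ hφ
    let φ' : W →ₐ[G] N :=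
      { φ.toRingHom with
        commutes' := fun u => by
          change φ (u : W) = _
          rw [hφ ⟨0, hpos⟩ u u.2, hσG _ u u.2]
          rfl }
    have h1 : φ x ∈ (minpoly G x).rootSet N := by
      rw [← Algebra.IsAlgebraic.range_eval_eq_rootSet_minpoly N x]
      exact ⟨φ', rfl⟩
    refine ⟨e.symm ⟨φ x, h1⟩, ?_⟩
    rw [hσ, hψ, Equiv.apply_symm_apply]
  · intro i M hM hL hi
    rw [← hΘx]
    refine alg_mem hM (E := G) (fun u hu => ?_) hx
    rw [← hσG i u hu]
    exact h.range_mem hM (fun r hr => by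
      rw [hbase i ⟨r, hr⟩]
      exact hL (hlamL _)) hi u
  · intro i M hM hL hi
    rw [← hΘx] at hi
    refine alg_mem hM (E := G) (fun u hu => ?_) hx
    rw [hσG i u hu]
    exact h.range_mem hM (fun r hr => by
      rw [hΘ ⟨r, hr⟩]
      exact hL (hlamL _)) hi u

/-- The automorphisms permute the fibre. -/
theorem autC {lam : k →ₐ[ℂ] N} {L : IntermediateField ℂ N} {G : IntermediateField ℂ W} {n : ℕ}
    {v : N} {σ : Fin n → (W →ₐ[ℂ] N)} (hF : FamC lam L G x v σ)
    (hy : y ∈ G ⊔ IntermediateField.adjoin ℂ {x}) {i j : Fin n} (θ : N ≃ₐ[ℂ] N)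
    (hθ : ∀ u, θ (σ i u) = σ j u) :
    ∃ π : Equiv.Perm (Fin n), ∀ k', θ (σ k' x) = σ (π k') x ∧ θ (σ k' y) = σ (π k') y := by
  have hG : ∀ k' k'', ∀ u ∈ G, (θ.toAlgHom.comp (σ k')) u = σ k'' u := by
    intro k' k'' u hu
    change θ (σ k' u) = σ k'' u
    rw [hF.agree k' i u hu, hθ, hF.agree j k'' u hu]
  choose π₀ hπ₀ using fun k' => hF.full (θ.toAlgHom.comp (σ k')) (fun k'' u hu => hG k' k'' u hu)
  have hx : ∀ k', θ (σ k' x) = σ (π₀ k') x := hπ₀
  have hπi : Function.Injective π₀ := by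
    intro a b hab
    apply hF.inj
    apply θ.injective
    change θ (σ a x) = θ (σ b x)
    rw [hx, hx, hab]
  refine ⟨Equiv.ofBijective π₀ (Finite.injective_iff_bijective.1 hπi), fun k' => ⟨hx k', ?_⟩⟩
  exact agree_sup (φ := θ.toAlgHom.comp (σ k')) (ψ := σ (π₀ k')) (hG k' (π₀ k')) (hx k') hy

end Vale.Agent.P297.Cc
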