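import Vale.Agent.P297.Cc.Defs
import Vale.Agent.P297.Cc.Disj

/-!
The nonsingularity of a matrix of conjugates, over a closed base.
-/

set_option linter.unusedSectionVars false
set_option linter.style.haveILetI false

open CategoryTheory AlgebraicGeometry IntermediateField Polynomial

namespace Vale.Agent.P297.Cc

open Vale.Agent.P297 Vale.Agent.P297.H839 Vale.Agent.P297.H516 Vale.Agent.P297.H878
  Vale.Agent.P297.Gen Vale.Agent.P297.Gg Vale.Agent.P297.Tw

section

variable {W N : Type} [Field W] [Algebra ℂ W] [IsAlgClosed W] [Field N] [Algebra ℂ N]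
  [IsAlgClosed N] {g : ℕ} {k : IntermediateField ℂ W} {l x y : W} {f : k[X]}

/-- **The matrix of conjugates is nonsingular.** -/
theorem hybridC (h : CPencil g k l x y f) (lam : k →ₐ[ℂ] N) {r : ℕ}
    (σ : Fin r → (W →ₐ[ℂ] N)) (hσ : ∀ i (e : k), σ i e = lam e)
    (M : Fin r → IntermediateField ℂ N) (hM : ∀ i v, IsAlgebraic (M i) v → v ∈ M i)
    (hlamM : ∀ i e, lam e ∈ M i) (hlt : ∀ i j, j < i → σ j x ∈ M i) (hnot : ∀ i, σ i x ∉ M i)
    (t : Fin r → Fin r → W) (ξ : Matrix (Fin r) (Fin r) k)
    (hξ0 : ξ.det ≠ 0)
    (hξ : ∀ i (a : Fin r → k),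
      ∑ j, (a j : W) * t i j = 0 → ∑ j, a j * ξ i j = 0) :
    (Matrix.of fun i j => σ i (t i j)).det ≠ 0 := by
  classical
  let A : ℕ → Matrix (Fin r) (Fin r) N := fun m => Matrix.of fun i j =>
    if (i : ℕ) < m then σ i (t i j) else lam (ξ i j)
  have key : ∀ m ≤ r, (A m).det ≠ 0 := by
    intro m
    induction m with
    | zero =>
      intro _
      have h1 : A 0 = ξ.map lam := by
        ext i j
        simp [A]
      rw [h1]
      have h2 : (ξ.map lam).det = lam ξ.det := (AlgHom.map_det lam ξ).symm
      rw [h2]
      exact (map_ne_zero lam.toRingHom).2 hξ0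
    | succ m ih =>
      intro hm
      have ihm := ih (by omega)
      let i₀ : Fin r := ⟨m, by omega⟩
      let D : (Fin r → N) →ₗ[N] N :=
        (Matrix.detRowAlternating (n := Fin r) (R := N)).toMultilinearMap.toLinearMap (A m) i₀
      have hD : ∀ v, D v = ((A m).updateRow i₀ v).det := fun _ => rfl
      have hexp : ∀ v : Fin r → N, D v = ∑ j, v j * D (fun j' => if j = j' then 1 else 0) := by
        intro v
        rw [LinearMap.pi_apply_eq_sum_univ D v]
        rfl
      have hcM : ∀ j, D (fun j' => if j = j' then 1 else 0) ∈ M i₀ := by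
        intro j
        rw [hD]
        apply det_mem
        intro i j'
        by_cases hi : i = i₀
        · rw [hi, Matrix.updateRow_self]
          split_ifs
          · exact one_mem _
          · exact zero_mem _
        · rw [Matrix.updateRow_ne hi]
          simp only [A, Matrix.of_apply]
          split_ifs with him
          · have hlt' : i < i₀ := him
            refine h.range_mem (hM i₀) ?_ (hlt i₀ i hlt') _
            intro e he
            have e1 := hσ i ⟨e, he⟩
            change σ i e = _ at e1
            rw [e1]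
            exact hlamM i₀ _
          · exact hlamM i₀ _
      have h1 : D (fun j => lam (ξ i₀ j)) = (A m).det := by
        rw [hD]
        congr 1
        ext i j
        by_cases hi : i = i₀
        · rw [hi, Matrix.updateRow_self]
          simp [A, i₀]
        · rw [Matrix.updateRow_ne hi]
      have h2 : D (fun j => σ i₀ (t i₀ j)) = (A (m + 1)).det := by
        rw [hD]
        congr 1
        ext i j
        by_cases hi : i = i₀
        · rw [hi, Matrix.updateRow_self]
          simp [A, i₀]
        · rw [Matrix.updateRow_ne hi]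
          have hne : (i : ℕ) ≠ m := fun h => hi (Fin.ext h)
          simp only [A, Matrix.of_apply]
          by_cases him : (i : ℕ) < m
          · rw [if_pos him, if_pos (by omega)]
          · rw [if_neg him, if_neg (by omega)]
      intro h0
      apply ihm
      rw [← h1, hexp]
      rw [← h2, hexp] at h0
      have h3 := disjC h.closed h.top lam (M i₀) (hM i₀) (hlamM i₀) (σ i₀) (hσ i₀) (hnot i₀) (t i₀)
        (fun j => D (fun j' => if j = j' then 1 else 0)) hcM
        ((Finset.sum_congr rfl fun j _ => mul_comm _ _).trans h0) (ξ i₀) (hξ i₀)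
      exact (Finset.sum_congr rfl fun j _ => mul_comm _ _).trans h3
  have h1 : (Matrix.of fun i j => σ i (t i j)) = A r := by
    ext i j
    simp [A]
  rw [h1]
  exact key r le_rfl

end

end Vale.Agent.P297.Cc
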