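import Vale.Agent.P297.Cc.Setup
import Vale.Agent.P297.Cc.Chain
import Vale.Agent.P297.Tw.Main

/-!
Zero-cycles on the surfaces dominated by a pencil of hyperelliptic curves whose Jacobian is
generated by correspondences with rational surfaces.
-/

set_option linter.unusedSectionVars false
set_option linter.style.haveILetI false

open CategoryTheory AlgebraicGeometry IntermediateField Polynomial

namespace Vale.Agent.P297.Cc

open Vale.Agent.P297 Vale.Agent.P297.H839 Vale.Agent.P297.H516 Vale.Agent.P297.H878
  Vale.Agent.P297.Gen Vale.Agent.P297.Gg Vale.Agent.P297.Tw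

section

variable {K W : Type} [Field K] [Algebra ℂ K] [Field W] [Algebra ℂ W] {g : ℕ} {l x y : K}
  {f : (IntermediateField.adjoin ℂ {l})[X]}

/-- Extension to an algebraic closure. -/
theorem toC (h : HPencil g l x y f) (em : K →ₐ[ℂ] W)
    (halg : ∀ u : W, IsAlgebraic em.fieldRange u) (k : IntermediateField ℂ W)
    (hl : em l ∈ k) (hk : ∀ u : W, u ∈ k ↔ IsAlgebraic (IntermediateField.adjoin ℂ {em l}) u) :
    CPencil g k (em l) (em x) (em y) (f.map (baseMap em k hl).toRingHom) where
  mem := hl
  alg := fun e he => (hk e).1 he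
  closed := by
    intro v hv
    have hle : IntermediateField.adjoin ℂ {em l} ≤ k := by
      rw [IntermediateField.adjoin_le_iff]
      rintro _ rfl
      exact hl
    letI : Algebra (IntermediateField.adjoin ℂ {em l}) k :=
      (IntermediateField.inclusion hle).toRingHom.toAlgebra
    haveI : IsScalarTower (IntermediateField.adjoin ℂ {em l}) k W :=
      IsScalarTower.of_algebraMap_eq fun _ => rfl
    haveI : Algebra.IsAlgebraic (IntermediateField.adjoin ℂ {em l}) k := by
      refine ⟨fun e => ?_⟩
      have h1 := (hk e).1 e.2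
      exact (isAlgebraic_algebraMap_iff (R := IntermediateField.adjoin ℂ {em l}) (S := k)
        (A := W) (algebraMap k W).injective).1 h1
    exact (hk v).2 (hv.restrictScalars _)
  ind := by
    have h2 := h.ind.map' (f := em) em.toRingHom.injective
    have h3 : (⇑em ∘ ![l, x]) = ![em l, em x] := by
      funext i
      fin_cases i <;> rfl
    rwa [h3] at h2
  sqf := (h.sep.map (f := (baseMap em k hl).toRingHom)).squarefree
  low := by
    rw [natDegree_map]
    exact h.low
  high := by
    rw [natDegree_map]
    exact h.high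
  eq := by
    rw [← map_pow, h.eq, Polynomial.aeval_def, Polynomial.aeval_def, Polynomial.eval₂_map]
    exact Polynomial.hom_eval₂ f _ em.toRingHom x
  top := by
    intro w
    obtain ⟨E, hE⟩ : ∃ E : IntermediateField ℂ W, E = k ⊔ IntermediateField.adjoin ℂ {em x} :=
      ⟨_, rfl⟩
    rw [← hE]
    have hkE : k ≤ E := by
      rw [hE]
      exact le_sup_left
    have hxE : em x ∈ E := by
      rw [hE]
      exact (le_sup_right : IntermediateField.adjoin ℂ {em x} ≤ _)
        (IntermediateField.mem_adjoin_simple_self ℂ _)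
    have hy2 : em y ^ 2 ∈ E := by
      have h9 : em (Polynomial.eval₂ (algebraMap (IntermediateField.adjoin ℂ {l}) K) x f) =
          Polynomial.eval₂ (em.toRingHom.comp (algebraMap (IntermediateField.adjoin ℂ {l}) K))
            (em x) f := Polynomial.hom_eval₂ f _ em.toRingHom x
      rw [← map_pow, h.eq, Polynomial.aeval_def, h9, Polynomial.eval₂_eq_sum_range]
      refine sum_mem fun i _ => mul_mem (hkE ?_) (pow_mem hxE i)
      exact base_le em k hl (f.coeff i)
    have hyi : IsIntegral E (em y) := by
      refine ⟨X ^ 2 - C (⟨em y ^ 2, hy2⟩ : E), monic_X_pow_sub_C _ two_ne_zero, ?_⟩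
      rw [eval₂_sub, eval₂_pow, eval₂_X, eval₂_C]
      exact sub_self _
    haveI : FiniteDimensional E (IntermediateField.adjoin E {em y}) :=
      IntermediateField.adjoin.finiteDimensional hyi
    haveI : Algebra.IsAlgebraic E (IntermediateField.adjoin E {em y}) :=
      Algebra.IsAlgebraic.of_finite _ _
    have hR : em.fieldRange ≤ (IntermediateField.adjoin E {em y}).restrictScalars ℂ := by
      rw [AlgHom.fieldRange_eq_map, ← h.top, IntermediateField.adjoin_map,
        IntermediateField.adjoin_le_iff]
      rintro _ ⟨v, (rfl | rfl | rfl), rfl⟩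
      · exact (IntermediateField.adjoin E {em y}).algebraMap_mem ⟨_, hkE hl⟩
      · exact (IntermediateField.adjoin E {em y}).algebraMap_mem ⟨_, hxE⟩
      · exact IntermediateField.mem_adjoin_simple_self E _
    have h1 : IsAlgebraic (IntermediateField.adjoin E {em y}) w := by
      obtain ⟨p, hp0, hp⟩ := halg w
      let ψ : em.fieldRange →+* IntermediateField.adjoin E {em y} :=
        { toFun := fun a => ⟨a, hR a.2⟩
          map_one' := rfl
          map_zero' := rfl
          map_mul' := fun _ _ => rfl
          map_add' := fun _ _ => rfl }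
      refine ⟨p.map ψ, (Polynomial.map_ne_zero_iff ψ.injective).2 hp0, ?_⟩
      rw [Polynomial.aeval_def, Polynomial.eval₂_map]
      exact hp
    exact h1.restrictScalars E

end

/-- **Zero-cycles on pencils of hyperelliptic curves without regular forms that are killed by all
of the correspondences with rational surfaces.** -/
theorem correspondences {K W : Type} [Field K] [Algebra ℂ K] [Field W] [Algebra ℂ W]
    [IsAlgClosed W] {g : ℕ} {l x y : K} {f : (IntermediateField.adjoin ℂ {l})[X]}
    (h : HPencil g l x y f) (hg : 1 ≤ g) (em : K →ₐ[ℂ] W)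
    (halg : ∀ u : W, IsAlgebraic em.fieldRange u) (k : IntermediateField ℂ W)
    (hk : ∀ u : W, u ∈ k ↔ IsAlgebraic (IntermediateField.adjoin ℂ {em l}) u)
    {ι : Type} (Q : ι → IntermediateField ℂ W) (hQ : ∀ b, IsRational (Q b))
    (hcov : ∀ b, em.fieldRange ≤ Q b ⊔ IntermediateField.adjoin ℂ {em x})
    (hdeg : ∀ b, (minpoly (Q b) (em x)).natDegree =
      (minpoly (k ⊔ Q b : IntermediateField ℂ W) (em x)).natDegree)
    (δ : Derivation k W W) (hδ : δ (em x) = 1)
    (w : ι → W) (hw : ∀ b, w b ∈ Q b) (hw0 : ∀ b, δ (w b) ≠ 0)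
    (htr : ∀ a : k[X], a.natDegree < g →
      (∀ b, ∀ v : IntermediateField.adjoin (k ⊔ Q b : IntermediateField ℂ W) {em x},
        (v : W) = aeval (em x) a / (em y * δ (w b)) →
          Algebra.trace (k ⊔ Q b : IntermediateField ℂ W)
            (IntermediateField.adjoin (k ⊔ Q b : IntermediateField ℂ W) {em x}) v = 0) → a = 0)
    (K₀ : Type) [Field K₀] [Algebra ℂ K₀] (e : K₀ →ₐ[ℂ] K) : PointsEquivalent K₀ := by
  classical
  have hl : em l ∈ k := (hk _).2 (isAlgebraic_algebraMap
    (⟨em l, IntermediateField.mem_adjoin_simple_self ℂ _⟩ : IntermediateField.adjoin ℂ {em l}))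
  by_cases hex : ∃ b, (minpoly (k ⊔ Q b : IntermediateField ℂ W) (em x)).natDegree = 1
  · obtain ⟨b, hb⟩ := hex
    exact dominated_of_degree_one em (Q b) (hQ b) (hcov b) ((hdeg b).trans hb) K₀ e
  obtain ⟨G, hG⟩ : ∃ G : ι → IntermediateField ℂ W, ∀ b, G b = k ⊔ Q b := ⟨_, fun b => rfl⟩
  replace hdeg : ∀ b, (minpoly (Q b) (em x)).natDegree = (minpoly (G b) (em x)).natDegree :=
    fun b => by
      rw [hG]
      exact hdeg b
  replace hex : ¬ ∃ b, (minpoly (G b) (em x)).natDegree = 1 := by
    rintro ⟨b, hb⟩
    rw [hG] at hb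
    exact hex ⟨b, hb⟩
  replace htr : ∀ a : k[X], a.natDegree < g →
      (∀ b, ∀ v : IntermediateField.adjoin (G b) {em x},
        (v : W) = aeval (em x) a / (em y * δ (w b)) →
          Algebra.trace (G b) (IntermediateField.adjoin (G b) {em x}) v = 0) → a = 0 := by
    intro a ha h0
    refine htr a ha fun b => ?_
    have h1 := h0 b
    rw [hG] at h1
    exact h1
  have hkG : ∀ b, k ≤ G b := fun b => by
    rw [hG]
    exact le_sup_left
  have hQG : ∀ b, Q b ≤ G b := fun b => by
    rw [hG]
    exact le_sup_right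
  have hC := toC h em halg k hl hk
  -- the elements of `G(x)`
  have hGF : ∀ b, G b ≤ (IntermediateField.adjoin (G b) {em x}).restrictScalars ℂ :=
    fun b v hv => (IntermediateField.adjoin (G b) {em x}).algebraMap_mem ⟨v, hv⟩
  have hxF : ∀ b, em x ∈ (IntermediateField.adjoin (G b) {em x}).restrictScalars ℂ := fun b =>
    IntermediateField.mem_adjoin_simple_self (G b) (em x)
  have hxF' : ∀ b, IntermediateField.adjoin ℂ {em x} ≤
      (IntermediateField.adjoin (G b) {em x}).restrictScalars ℂ := by
    intro b
    rw [IntermediateField.adjoin_le_iff]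
    rintro _ rfl
    exact hxF b
  have hKF : ∀ b, em.fieldRange ≤ (IntermediateField.adjoin (G b) {em x}).restrictScalars ℂ :=
    fun b => (hcov b).trans (sup_le ((hQG b).trans (hGF b)) (hxF' b))
  have hmem : ∀ b (j : Fin g), em x ^ (j : ℕ) / (em y * δ (w b)) ∈
      (IntermediateField.adjoin (G b) {em x}).restrictScalars ℂ := by
    intro b j
    refine div_mem (pow_mem (hxF b) _) (mul_mem (hKF b ⟨y, rfl⟩) ?_)
    exact der_mem hC δ hδ _ (sup_le ((hkG b).trans (hGF b)) (hxF' b)) (hGF b (hQG b (hw b)))
  let v : ∀ b, Fin g → IntermediateField.adjoin (G b) ({em x} : Set W) := fun b j =>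
    ⟨em x ^ (j : ℕ) / (em y * δ (w b)), hmem b j⟩
  obtain ⟨b, xi, hxi, hxi0, hne⟩ := choice (k := k) (W := W) (g := g)
    (fun b j => ((Algebra.trace (G b) (IntermediateField.adjoin (G b) {em x}) (v b j) : G b) : W))
    (by
    intro u hu
    let a : k[X] := ∑ j : Fin g, Polynomial.C (u j) * X ^ (j : ℕ)
    have ha : a = 0 := by
      apply htr
      · have h1 : a.natDegree ≤ g - 1 := by
          refine Polynomial.natDegree_sum_le_of_forall_le _ _ fun j _ => ?_
          refine (Polynomial.natDegree_C_mul_X_pow_le _ _).trans ?_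
          have := j.2
          omega
        omega
      · intro b v' hv'
        have h3 : v' = ∑ j : Fin g, (⟨(u j : W), hkG b (u j).2⟩ : G b) • v b j := by
          apply Subtype.ext
          rw [hv', map_sum, Finset.sum_div, AddSubmonoidClass.coe_finsetSum]
          refine Finset.sum_congr rfl fun j _ => ?_
          rw [map_mul, map_pow, aeval_C, aeval_X, mul_div_assoc]
          rfl
        rw [h3, map_sum]
        apply Subtype.ext
        have h5 := hu b
        refine Eq.trans ?_ h5
        rw [AddSubmonoidClass.coe_finsetSum]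
        refine Finset.sum_congr rfl fun j _ => ?_
        rw [map_smul]
        rfl
    funext j
    have h6 : a.coeff j = u j := by
      simp only [a, finsetSum_coeff, coeff_C_mul, coeff_X_pow]
      rw [Finset.sum_eq_single j]
      · simp
      · intro i _ hij
        rw [if_neg, mul_zero]
        intro hji
        exact hij (Fin.ext hji.symm)
      · intro hj
        exact absurd (Finset.mem_univ _) hj
    rw [← h6, ha]
    rfl)
  have hdet : (Matrix.of xi).det ≠ 0 := by
    intro h0
    obtain ⟨v, hv0, hv⟩ := Matrix.exists_mulVec_eq_zero_iff.2 h0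
    apply hv0
    apply hxi0
    intro i
    have h1 := congrFun hv i
    simp only [Matrix.mulVec, dotProduct, Matrix.of_apply, Pi.zero_apply] at h1
    rw [← h1]
    exact Finset.sum_congr rfl fun j _ => mul_comm _ _
  have hint : ∀ i, IsIntegral (G (b i)) (em x) := by
    intro i
    by_contra hni
    obtain ⟨j, hj⟩ := hne i
    apply hj
    rw [Algebra.trace_eq_zero_of_not_exists_basis]
    · rfl
    · rintro ⟨s, ⟨B⟩⟩
      have h4 : FiniteDimensional (G (b i)) (IntermediateField.adjoin (G (b i)) {em x}) :=
        Module.Finite.of_basis B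
      have h5 : IsIntegral (G (b i)) (⟨em x, IntermediateField.mem_adjoin_simple_self _ _⟩ :
          IntermediateField.adjoin (G (b i)) {em x}) := IsIntegral.of_finite _ _
      exact hni (h5.map (IntermediateField.adjoin (G (b i)) {em x}).val)
  have h2 : ∀ i, 2 ≤ (minpoly (G (b i)) (em x)).natDegree := by
    intro i
    have h1 : (minpoly (G (b i)) (em x)).natDegree ≠ 1 := fun h0 => hex ⟨_, h0⟩
    have h3 := minpoly.natDegree_pos (hint i)
    omega
  obtain ⟨N, _, _, _, lam, L, e', m, σ, ρ, hLc, hlamL, hLw, hbase, hagree, hρL, hall, hS⟩ :=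
    exists_sysC hC hg (fun i => G (b i)) (n := fun i => (minpoly (G (b i)) (em x)).natDegree)
      (fun i => hkG _) h2 (fun i => (hint i).isAlgebraic) (fun i => rfl)
      (fun i => ((hcov (b i)).trans (sup_le_sup_right (hQG _) _)) ⟨y, rfl⟩) δ hδ
      (fun i => w (b i)) (fun i => hQG _ (hw _)) (fun i => hw0 _) (fun i => v (b i))
      (fun i j => rfl) (Matrix.of xi) hdet (fun i a ha => hxi i a (by
        rw [← ha]
        rfl))
  have hfib : ∀ b' i i', σ ⟨b', i⟩ (em x) = σ ⟨b', i'⟩ (em x) → i = i' := by
    intro b' i i' hii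
    have h4 := hS.inj (a₁ := Sum.inl ⟨b', i⟩) (a₂ := Sum.inl ⟨b', i'⟩) hii
    have h5 := Sum.inl_injective h4
    exact eq_of_heq (Sigma.mk.inj h5).2
  refine asmT h (lam.comp (baseMap em k hl)) L (fun e => hlamL _) (fun w hw => hLw w hw)
    (fun i => (σ i).comp em) (fun i => (ρ i).comp em) (fun i e => ?_) (fun i e => ?_) hρL
    (a := m) (bl := blk) ?_ ?_ K₀ e
  · exact hbase (Sum.inl i) (baseMap em k hl e)
  · exact hbase (Sum.inr i) (baseMap em k hl e)
  · rw [show (lam.comp (baseMap em k hl)).toRingHom =
      lam.toRingHom.comp (baseMap em k hl).toRingHom from rfl, ← Polynomial.map_map]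
    convert hS using 1
    · funext i
      rcases i with i | i <;> rfl
    · funext i
      rcases i with i | i <;> rfl
  · intro S F _ C _ _ _ j hj ι' b'
    have hpos : 0 < (minpoly (Q (b b')) (em x)).natDegree := by
      rw [hdeg]
      have := h2 b'
      omega
    refine block_good em (Q (b b')) (hQ _) (em x) (minpoly (Q (b b')) (em x))
      (fun h0 => by simp [h0] at hpos) (hdeg _).le (minpoly.aeval _ _) (hcov _)
      (fun i => σ ⟨b', i⟩) (fun i i' u hu => hagree b' i i' u (hQG _ hu)) ?_ ι'
    intro i i' hii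
    exact hfib b' i i' hii

end Vale.Agent.P297.Cc
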