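import Vale.Agent.P297.Cc.Defs
import Vale.Agent.P297.Tw.Main

/-!
A pencil of hyperelliptic curves in the algebraic closure of its function field.
-/

set_option linter.unusedSectionVars false
set_option linter.style.haveILetI false

open CategoryTheory AlgebraicGeometry IntermediateField Polynomial

namespace Vale.Agent.P297.Cc

open Vale.Agent.P297 Vale.Agent.P297.H839 Vale.Agent.P297.H516 Vale.Agent.P297.H878
  Vale.Agent.P297.Gen Vale.Agent.P297.Gg Vale.Agent.P297.Jj Vale.Agent.P297.Tw

section

variable {K W : Type} [Field K] [Algebra ℂ K] [Field W] [Algebra ℂ W] {g : ℕ} {l x y : K}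
  {f : (IntermediateField.adjoin ℂ {l})[X]}

/-- The pencil in the algebraic closure. -/
theorem toC (h : HPencil g l x y f) (em : K →ₐ[ℂ] W) (k : IntermediateField ℂ W)
    (hl : em l ∈ k) (halg : ∀ e ∈ k, IsAlgebraic (IntermediateField.adjoin ℂ {em l}) e)
    (hclosed : ∀ v : W, IsAlgebraic k v → v ∈ k)
    (hW : ∀ u : W, IsAlgebraic em.fieldRange u) :
    CPencil g k (em l) (em x) (em y) (f.map (baseMap em k hl).toRingHom) where
  mem := hl
  alg := halg
  closed := hclosed
  ind := by
    have h2 := h.ind.map' (f := em) em.toRingHom.injective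
    have h3 : (⇑em ∘ ![l, x]) = ![em l, em x] := by
      funext i
      fin_cases i <;> rfl
    rwa [h3] at h2
  sqf := (h.sep.map (f := (baseMap em k hl).toRingHom)).squarefree
  low := by
    rw [natDegree_map]
    exact h.low
  high := by
    rw [natDegree_map]
    exact h.high
  eq := by
    rw [← map_pow, h.eq, Polynomial.aeval_def, Polynomial.aeval_def, Polynomial.eval₂_map]
    exact Polynomial.hom_eval₂ f _ em.toRingHom x
  top := by
    intro u
    set E : IntermediateField ℂ W := k ⊔ IntermediateField.adjoin ℂ {em x} with hE
    have hlE : em l ∈ E := (le_sup_left : k ≤ E) hl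
    have hxE : em x ∈ E := (le_sup_right : IntermediateField.adjoin ℂ {em x} ≤ E)
      (IntermediateField.mem_adjoin_simple_self ℂ _)
    have hfE : ∀ n, em (f.coeff n) ∈ E := fun n => (le_sup_left : k ≤ E)
      (base_le em k hl (f.coeff n))
    have hy2 : (em y) ^ 2 ∈ E := by
      rw [← map_pow, h.eq, Polynomial.aeval_def, Polynomial.eval₂_eq_sum_range, map_sum]
      refine sum_mem fun i _ => ?_
      rw [map_mul, map_pow]
      exact mul_mem (hfE i) (pow_mem hxE i)
    have hyalg : IsAlgebraic E (em y) := by
      refine ⟨X ^ 2 - C ⟨(em y) ^ 2, hy2⟩, (monic_X_pow_sub_C _ two_ne_zero).ne_zero, ?_⟩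
      rw [map_sub, map_pow, aeval_X, aeval_C]
      exact sub_self _
    have hle : ∀ u : K, em u ∈ IntermediateField.adjoin E {em y} := by
      intro u
      have hu : u ∈ (⊤ : IntermediateField ℂ K) := trivial
      rw [← h.top] at hu
      induction hu using IntermediateField.adjoin_induction with
      | mem a ha =>
        rcases ha with rfl | rfl | rfl
        · exact (IntermediateField.adjoin E {em y}).algebraMap_mem ⟨_, hlE⟩
        · exact (IntermediateField.adjoin E {em y}).algebraMap_mem ⟨_, hxE⟩
        · exact IntermediateField.mem_adjoin_simple_self E _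
      | algebraMap r =>
        rw [AlgHom.commutes]
        exact (IntermediateField.adjoin E {em y}).algebraMap_mem ⟨_, E.algebraMap_mem r⟩
      | add a b _ _ ha hb =>
        rw [map_add]
        exact add_mem ha hb
      | mul a b _ _ ha hb =>
        rw [map_mul]
        exact mul_mem ha hb
      | inv a _ ha =>
        rw [map_inv₀]
        exact inv_mem ha
    let ι : em.fieldRange →+* IntermediateField.adjoin E {em y} :=
      { toFun := fun u => ⟨u, by
          obtain ⟨u, v, rfl⟩ := u
          exact hle v⟩
        map_one' := rfl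
        map_zero' := rfl
        map_mul' := fun _ _ => rfl
        map_add' := fun _ _ => rfl }
    haveI h1 : Algebra.IsAlgebraic (IntermediateField.adjoin E {em y}) W := by
      constructor
      intro u
      obtain ⟨p, hp0, hp⟩ := hW u
      refine ⟨p.map ι, (Polynomial.map_ne_zero_iff ι.injective).2 hp0, ?_⟩
      rw [Polynomial.aeval_def, Polynomial.eval₂_map]
      exact hp
    haveI h2 : Algebra.IsAlgebraic E (IntermediateField.adjoin E {em y}) :=
      IntermediateField.isAlgebraic_adjoin_simple hyalg.isIntegral
    exact (Algebra.IsAlgebraic.trans E (IntermediateField.adjoin E {em y}) W).isAlgebraic u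

end

end Vale.Agent.P297.Cc
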