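import Vale.Agent.P297.Cc.Setup
import Vale.Agent.P297.Cc.ToC

/-!
Zero-cycles on the surfaces dominated by a pencil of hyperelliptic curves whose Jacobian is
generated by correspondences with pencils on rational surfaces.
-/

set_option linter.unusedSectionVars false
set_option linter.style.haveILetI false

open CategoryTheory AlgebraicGeometry IntermediateField Polynomial

namespace Vale.Agent.P297.Cc

open Vale.Agent.P297 Vale.Agent.P297.H839 Vale.Agent.P297.H516 Vale.Agent.P297.H878
  Vale.Agent.P297.Gen Vale.Agent.P297.Gg Vale.Agent.P297.Jj Vale.Agent.P297.Tw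

theorem mem_adj {W : Type} [Field W] [Algebra ℂ W] {G : IntermediateField ℂ W} {x u : W}
    (hu : u ∈ G ⊔ IntermediateField.adjoin ℂ {x}) : u ∈ IntermediateField.adjoin G {x} := by
  refine sup_induction (P := fun u => u ∈ IntermediateField.adjoin G {x}) ?_ ?_ ?_ ?_ ?_ hu
  · intro e he
    exact (IntermediateField.adjoin G {x}).algebraMap_mem ⟨e, he⟩
  · exact IntermediateField.mem_adjoin_simple_self G x
  · intro a b ha hb
    exact add_mem ha hb
  · intro a b ha hb
    exact mul_mem ha hb
  · intro a ha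
    exact inv_mem ha

theorem closed_of_iff {W : Type} [Field W] [Algebra ℂ W] {k : IntermediateField ℂ W} {m : W}
    (hk : ∀ e, e ∈ k ↔ IsAlgebraic (IntermediateField.adjoin ℂ {m}) e) (v : W)
    (hv : IsAlgebraic k v) : v ∈ k := by
  have hle : IntermediateField.adjoin ℂ {m} ≤ k := fun u hu =>
    (hk u).2 (isAlgebraic_algebraMap (⟨u, hu⟩ : IntermediateField.adjoin ℂ {m}))
  letI : Algebra (IntermediateField.adjoin ℂ {m}) k :=
    (IntermediateField.inclusion hle).toRingHom.toAlgebra
  haveI : IsScalarTower (IntermediateField.adjoin ℂ {m}) k W :=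
    IsScalarTower.of_algebraMap_eq fun _ => rfl
  haveI : Algebra.IsAlgebraic (IntermediateField.adjoin ℂ {m}) k := by
    constructor
    intro e
    obtain ⟨p, hp0, hp⟩ := (hk e).1 e.2
    refine ⟨p, hp0, ?_⟩
    apply Subtype.ext
    have h1 := Polynomial.hom_eval₂ p (IntermediateField.inclusion hle).toRingHom
      k.val.toRingHom e
    exact h1.trans hp
  exact (hk v).2 (hv.restrictScalars (IntermediateField.adjoin ℂ {m}))

/-- **Zero-cycles on pencils of hyperelliptic curves without regular forms of trace zero along all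
of the rational correspondences.** -/
theorem forms_traced_corr {K W : Type} [Field K] [Algebra ℂ K] [Field W] [Algebra ℂ W]
    [IsAlgClosed W] {g : ℕ}
    {l x y : K} {f : (IntermediateField.adjoin ℂ {l})[X]} (h : HPencil g l x y f) (hg : 1 ≤ g)
    (em : K →ₐ[ℂ] W) (hW : ∀ u : W, IsAlgebraic em.fieldRange u)
    (k : IntermediateField ℂ W)
    (hk : ∀ e, e ∈ k ↔ IsAlgebraic (IntermediateField.adjoin ℂ {em l}) e)
    {ι : Type} (Q : ι → IntermediateField ℂ W)
    (hQ : ∀ b, IsRational (Q b))
    (hcov : ∀ b, em.fieldRange ≤ Q b ⊔ IntermediateField.adjoin ℂ {em x})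
    (hdeg : ∀ b, (minpoly (Q b) (em x)).natDegree =
      (minpoly (k ⊔ Q b : IntermediateField ℂ W) (em x)).natDegree)
    (δ : Derivation k W W) (hδ : δ (em x) = 1)
    (w : ι → W) (hw : ∀ b, w b ∈ Q b) (hw0 : ∀ b, δ (w b) ≠ 0)
    (htr : ∀ a : k[X], a.natDegree < g →
      (∀ b, ∀ u : IntermediateField.adjoin (k ⊔ Q b : IntermediateField ℂ W) {em x},
        (u : W) = aeval (em x) a / (em y * δ (w b)) →
        Algebra.trace (k ⊔ Q b : IntermediateField ℂ W)
          (IntermediateField.adjoin (k ⊔ Q b : IntermediateField ℂ W) {em x}) u = 0) → a = 0)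
    (K₀ : Type) [Field K₀] [Algebra ℂ K₀] (e : K₀ →ₐ[ℂ] K) : PointsEquivalent K₀ := by
  classical
  by_cases hex : ∃ b, (minpoly (Q b) (em x)).natDegree = 1
  · obtain ⟨b, hb⟩ := hex
    exact dominated_of_degree_one em (Q b) (hQ b) (hcov b) hb K₀ e
  obtain ⟨G, hG⟩ : ∃ G : ι → IntermediateField ℂ W, ∀ b, G b = k ⊔ Q b := ⟨_, fun b => rfl⟩
  replace hdeg : ∀ b, (minpoly (Q b) (em x)).natDegree = (minpoly (G b) (em x)).natDegree := by
    intro b
    rw [hG]
    exact hdeg b
  replace htr : ∀ a : k[X], a.natDegree < g →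
      (∀ b, ∀ u : IntermediateField.adjoin (G b) {em x},
        (u : W) = aeval (em x) a / (em y * δ (w b)) →
        Algebra.trace (G b) (IntermediateField.adjoin (G b) {em x}) u = 0) → a = 0 := by
    intro a ha h0
    refine htr a ha fun b => ?_
    have h1 := h0 b
    rw [hG] at h1
    exact h1
  have hl : em l ∈ k := (hk _).2 (isAlgebraic_algebraMap
    (⟨_, IntermediateField.mem_adjoin_simple_self ℂ (em l)⟩ : IntermediateField.adjoin ℂ {em l}))
  have hclosed : ∀ v : W, IsAlgebraic k v → v ∈ k := closed_of_iff hk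
  have hkG : ∀ b, k ≤ G b := fun b => by
    rw [hG]
    exact le_sup_left
  have hQG : ∀ b, Q b ≤ G b := fun b => by
    rw [hG]
    exact le_sup_right
  have hC := toC h em k hl (fun e he => (hk e).1 he) hclosed hW
  have hy0 : em y ≠ 0 := hC.y_ne
  have hyG : ∀ b, em y ∈ G b ⊔ IntermediateField.adjoin ℂ {em x} := fun b =>
    (sup_le_sup_right (hQG b) _) (hcov b ⟨y, rfl⟩)
  have hxG : ∀ b, em x ∈ G b ⊔ IntermediateField.adjoin ℂ {em x} := fun b =>
    (le_sup_right : IntermediateField.adjoin ℂ {em x} ≤ _)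
      (IntermediateField.mem_adjoin_simple_self ℂ _)
  have hδG : ∀ b, δ (w b) ∈ G b ⊔ IntermediateField.adjoin ℂ {em x} := fun b =>
    der_mem hC δ hδ _ (sup_le_sup_right (hkG b) _) ((le_sup_left : G b ≤ _) (hQG b (hw b)))
  let v : ∀ b, Fin g → IntermediateField.adjoin (G b) ({em x} : Set W) := fun b j =>
    ⟨em x ^ (j : ℕ) / (em y * δ (w b)),
      mem_adj (div_mem (pow_mem (hxG b) _) (mul_mem (hyG b) (hδG b)))⟩
  obtain ⟨b, xi, hxi, hxi0, hne⟩ := choice (k := k) (W := W) (g := g)
    (fun b j => ((Algebra.trace (G b) (IntermediateField.adjoin (G b) ({em x} : Set W))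
      (v b j) : G b) : W)) (by
    intro u hu
    let a : k[X] := ∑ j : Fin g, Polynomial.C (u j) * X ^ (j : ℕ)
    have ha : a = 0 := by
      apply htr
      · have h1 : a.natDegree ≤ g - 1 := by
          refine Polynomial.natDegree_sum_le_of_forall_le _ _ fun j _ => ?_
          refine (Polynomial.natDegree_C_mul_X_pow_le _ _).trans ?_
          have := j.2
          omega
        omega
      · intro b z hz
        have h3 : z = ∑ j : Fin g, (⟨(u j : W), hkG b (u j).2⟩ : G b) • v b j := by
          apply Subtype.ext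
          rw [hz, map_sum, Finset.sum_div, AddSubmonoidClass.coe_finsetSum]
          refine Finset.sum_congr rfl fun j _ => ?_
          rw [map_mul, map_pow, aeval_C, aeval_X, mul_div_assoc]
          rfl
        rw [h3, map_sum]
        apply Subtype.ext
        have h5 := hu b
        refine Eq.trans ?_ h5
        rw [AddSubmonoidClass.coe_finsetSum]
        refine Finset.sum_congr rfl fun j _ => ?_
        rw [map_smul]
        rfl
    funext j
    have h6 : a.coeff j = u j := by
      simp only [a, finsetSum_coeff, coeff_C_mul, coeff_X_pow]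
      rw [Finset.sum_eq_single j]
      · simp
      · intro i _ hij
        rw [if_neg, mul_zero]
        intro hji
        exact hij (Fin.ext hji.symm)
      · intro hj
        exact absurd (Finset.mem_univ _) hj
    rw [← h6, ha]
    rfl)
  have hdet : (Matrix.of xi).det ≠ 0 := by
    intro h0
    obtain ⟨v, hv0, hv⟩ := Matrix.exists_mulVec_eq_zero_iff.2 h0
    apply hv0
    apply hxi0
    intro i
    have h1 := congrFun hv i
    simp only [Matrix.mulVec, dotProduct, Matrix.of_apply, Pi.zero_apply] at h1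
    rw [← h1]
    exact Finset.sum_congr rfl fun j _ => mul_comm _ _
  have hx : ∀ i, IsAlgebraic (G (b i)) (em x) := by
    intro i
    by_contra hnot
    obtain ⟨j, hj⟩ := hne i
    apply hj
    rw [Algebra.trace_eq_zero_of_not_exists_basis]
    · rfl
    · rintro ⟨s, ⟨B⟩⟩
      have h4 : FiniteDimensional (G (b i)) (IntermediateField.adjoin (G (b i)) ({em x} : Set W)) :=
        Module.Finite.of_basis B
      apply hnot
      have h5 : IsAlgebraic (G (b i)) (⟨em x, IntermediateField.mem_adjoin_simple_self _ _⟩ :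
        IntermediateField.adjoin (G (b i)) ({em x} : Set W)) :=
        Algebra.IsAlgebraic.isAlgebraic _
      exact h5.algebraMap
  have h2 : ∀ i, 2 ≤ (minpoly (G (b i)) (em x)).natDegree := by
    intro i
    have h1 : (minpoly (G (b i)) (em x)).natDegree ≠ 1 := fun h0 => hex ⟨b i, (hdeg _).trans h0⟩
    have h3 := minpoly.natDegree_pos (hx i).isIntegral
    omega
  obtain ⟨N, _, _, _, lam, L, e', m, σ, ρ, hLc, hlamL, hLw, hbase, hagree, hρL, hall, hS⟩ :=
    exists_sysC hC hg (fun i => G (b i)) (n := fun i => (minpoly (G (b i)) (em x)).natDegree)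
      (fun i => hkG _) h2 hx (fun i => rfl) (fun i => hyG _) δ hδ (fun i => w (b i))
      (fun i => hQG _ (hw _)) (fun i => hw0 _) (fun i => v (b i)) (fun i j => rfl)
      (Matrix.of xi) hdet (fun i a ha => hxi i a (by
        rw [← ha]
        rfl))
  have hfib : ∀ b' i i', σ ⟨b', i⟩ (em x) = σ ⟨b', i'⟩ (em x) → i = i' := by
    intro b' i i' hii
    have h4 := hS.inj (a₁ := Sum.inl ⟨b', i⟩) (a₂ := Sum.inl ⟨b', i'⟩) hii
    have h5 := Sum.inl_injective h4
    exact eq_of_heq (Sigma.mk.inj h5).2
  refine asmT h (lam.comp (baseMap em k hl)) L (fun e => hlamL _) (fun w hw => hLw w hw)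
    (fun i => (σ i).comp em) (fun i => (ρ i).comp em) (fun i e => ?_) (fun i e => ?_) hρL
    (a := m) (bl := blk) ?_ ?_ K₀ e
  · exact hbase (Sum.inl i) (baseMap em k hl e)
  · exact hbase (Sum.inr i) (baseMap em k hl e)
  · rw [show (lam.comp (baseMap em k hl)).toRingHom =
      lam.toRingHom.comp (baseMap em k hl).toRingHom from rfl, ← Polynomial.map_map]
    convert hS using 1
    · funext i
      rcases i with i | i <;> rfl
    · funext i
      rcases i with i | i <;> rfl
  · intro S F _ C _ _ _ j hj ι' b'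
    have hpos : 0 < (minpoly (Q (b b')) (em x)).natDegree := by
      rw [hdeg]
      have := h2 b'
      omega
    refine block_good em (Q (b b')) (hQ _) (em x) (minpoly (Q (b b')) (em x))
      (fun h0 => by simp [h0] at hpos) (hdeg _).le (minpoly.aeval _ _) (hcov _)
      (fun i => σ ⟨b', i⟩) (fun i i' u hu => hagree b' i i' u (hQG _ hu)) ?_ ι'
    intro i i' hii
    exact hfib b' i i' hii

end Vale.Agent.P297.Cc
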